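import Vale.Agent.P002.H2.Defs

/-!
# Transversals, the wreath product lemma, induced matrices
-/

namespace Vale.Agent.P002.H377

open Matrix Vale.Agent.P002.H2

variable {F : Type} [Group F]

/-- `t` is a system of representatives of `H / H'`. -/
structure Trans {Ω : Type} (H H' : Subgroup F) (t : Ω → F) : Prop where
  mem : ∀ c, t c ∈ H
  uniq : ∀ x ∈ H, ∃! c, (t c)⁻¹ * x ∈ H'

/-- PC5a: a transversal with index type `Fin`. -/
theorem PC5a (H H' : Subgroup F) (_hle : H' ≤ H) (hfi : H'.relIndex H ≠ 0) :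
    ∃ t : Fin (H'.relIndex H) → F, Trans H H' t := by
  have hcard : Nat.card (H ⧸ H'.subgroupOf H) = H'.relIndex H := rfl
  have hfin : Finite (H ⧸ H'.subgroupOf H) := Nat.finite_of_card_ne_zero (hcard ▸ hfi)
  let e : Fin (H'.relIndex H) ≃ (H ⧸ H'.subgroupOf H) := (Finite.equivFinOfCardEq hcard).symm
  refine ⟨fun c => ((e c).out : H).1, ⟨fun c => (e c).out.2, fun x hx => ?_⟩⟩
  have key : ∀ c, (((e c).out : H).1⁻¹ * x ∈ H' ↔
      e c = (QuotientGroup.mk (⟨x, hx⟩ : H) : H ⧸ H'.subgroupOf H)) := by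
    intro c
    have h1 : (((e c).out : H).1⁻¹ * x ∈ H') ↔
        (((e c).out : H)⁻¹ * ⟨x, hx⟩ ∈ H'.subgroupOf H) := by
      rw [Subgroup.mem_subgroupOf]; rfl
    rw [h1, ← QuotientGroup.eq, QuotientGroup.out_eq']
  refine ⟨e.symm (QuotientGroup.mk ⟨x, hx⟩), ?_, ?_⟩
  · exact (key _).2 (e.apply_symm_apply _)
  · intro c hc
    rw [← (key c).1 hc, e.symm_apply_apply]

/-- The homomorphism given by a multiplicative function. -/
def homOf {M : Type*} [Monoid M] {H : Subgroup F} {ρ : F → M} (h : MulOn H ρ) : H →* M where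
  toFun x := ρ x.1
  map_one' := h.one
  map_mul' x y := h.mul x.1 x.2 y.1 y.2

@[simp] lemma homOf_apply {M : Type*} [Monoid M] {H : Subgroup F} {ρ : F → M} (h : MulOn H ρ)
    (x : H) : homOf h x = ρ x.1 := rfl

lemma MulOn.inv' {G : Type*} [Group G] {H : Subgroup F} {ρ : F → G} (h : MulOn H ρ) {x : F}
    (hx : x ∈ H) : ρ x⁻¹ = (ρ x)⁻¹ := map_inv (homOf h) ⟨x, hx⟩

lemma MulOn.zpow' {G : Type*} [Group G] {H : Subgroup F} {ρ : F → G} (h : MulOn H ρ) {x : F}
    (hx : x ∈ H) (k : ℤ) : ρ (x ^ k) = ρ x ^ k := map_zpow (homOf h) ⟨x, hx⟩ k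

/-- PC5b: the wreath product lemma, general form. -/
theorem PC5b' {Ω : Type} {H' : Subgroup F} {t : Ω → F}
    {G : Type*} [Group G] (τ τ' : F → G) (hτ : MulOn H' τ) (hτ' : MulOn H' τ')
    (y : F)
    (hc : ∀ (c : Ω) (k : ℤ), (t c)⁻¹ * y ^ k * t c ∈ H' →
      IsConj (τ ((t c)⁻¹ * y ^ k * t c)) (τ' ((t c)⁻¹ * y ^ k * t c))) :
    ∃ P : Ω → G, ∀ c c', (t c')⁻¹ * y * t c ∈ H' →
      P c' * τ ((t c')⁻¹ * y * t c) = τ' ((t c')⁻¹ * y * t c) * P c := by
  classical
  -- the orbit relation of `y`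
  let s : Setoid Ω :=
    { r := fun c c' => ∃ i : ℤ, (t c')⁻¹ * y ^ i * t c ∈ H'
      iseqv := by
        refine ⟨fun c => ⟨0, by simp⟩, ?_, ?_⟩
        · rintro c c' ⟨i, hi⟩
          refine ⟨-i, ?_⟩
          have := H'.inv_mem hi
          convert this using 1
          group
        · rintro c c' c'' ⟨i, hi⟩ ⟨j, hj⟩
          refine ⟨j + i, ?_⟩
          have := H'.mul_mem hj hi
          convert this using 1
          rw [_root_.zpow_add]
          group }
  let base : Ω → Ω := fun c => (Quotient.mk s c).out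
  have hbase : ∀ c, ∃ i : ℤ, (t c)⁻¹ * y ^ i * t (base c) ∈ H' := by
    intro c
    have : s (base c) c := Quotient.mk_out (s := s) c
    exact this
  choose i hi using hbase
  have hbeq : ∀ c c', (t c')⁻¹ * y * t c ∈ H' → base c' = base c := by
    intro c c' h
    have : s c c' := ⟨1, by simpa using h⟩
    show (Quotient.mk s c').out = (Quotient.mk s c).out
    rw [Quotient.sound this]
  -- the elements conjugating at the base points
  have hg : ∀ b : Ω, ∃ g : G, ∀ k : ℤ, (t b)⁻¹ * y ^ k * t b ∈ H' →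
      g * τ ((t b)⁻¹ * y ^ k * t b) = τ' ((t b)⁻¹ * y ^ k * t b) * g := by
    intro b
    let S : AddSubgroup ℤ :=
      { carrier := {k | (t b)⁻¹ * y ^ k * t b ∈ H'}
        zero_mem' := by simp
        add_mem' := by
          intro k l hk hl
          have := H'.mul_mem hk hl
          simp only [Set.mem_ofPred_eq] at *
          convert this using 1
          rw [_root_.zpow_add]
          group
        neg_mem' := by
          intro k hk
          have := H'.inv_mem hk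
          simp only [Set.mem_ofPred_eq] at *
          convert this using 1
          group }
    obtain ⟨a, ha⟩ := Int.subgroup_cyclic S
    have haS : a ∈ S := by rw [ha]; exact AddSubgroup.subset_closure rfl
    obtain ⟨g, hg⟩ := isConj_iff.1 (hc b a haS)
    refine ⟨g, fun k hk => ?_⟩
    have hkS : k ∈ S := hk
    rw [ha, AddSubgroup.mem_closure_singleton] at hkS
    obtain ⟨m, hm⟩ := hkS
    have e1 : (t b)⁻¹ * y ^ k * t b = ((t b)⁻¹ * y ^ a * t b) ^ m := by
      rw [← hm]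
      have := conj_zpow (a := (t b)⁻¹) (b := y ^ a) (i := m)
      rw [inv_inv] at this
      rw [this, ← _root_.zpow_mul, smul_eq_mul, mul_comm]
    rw [e1, MulOn.zpow' hτ haS, MulOn.zpow' hτ' haS, ← hg, conj_zpow]
    group
  choose g hg using hg
  refine ⟨fun c => τ' ((t c)⁻¹ * y ^ i c * t (base c)) * g (base c) *
    (τ ((t c)⁻¹ * y ^ i c * t (base c)))⁻¹, fun c c' hu => ?_⟩
  have hb := hbeq c c' hu
  simp only
  have hv' := hi c'
  rw [hb] at hv' ⊢
  have hv := hi c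
  set b := base c
  set v := (t c)⁻¹ * y ^ i c * t b with hvdef
  set v' := (t c')⁻¹ * y ^ i c' * t b with hv'def
  set u := (t c')⁻¹ * y * t c with hudef
  have hw : v'⁻¹ * u * v ∈ H' := H'.mul_mem (H'.mul_mem (H'.inv_mem hv') hu) hv
  have hwe : v'⁻¹ * u * v = (t b)⁻¹ * y ^ (-(i c') + 1 + i c) * t b := by
    rw [hvdef, hv'def, hudef, _root_.zpow_add, _root_.zpow_add, zpow_one]
    group
  have hgk := hg b (-(i c') + 1 + i c) (hwe ▸ hw)
  rw [← hwe] at hgk
  have e1 : τ (v'⁻¹ * u * v) = (τ v')⁻¹ * τ u * τ v := by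
    rw [hτ.mul _ (H'.mul_mem (H'.inv_mem hv') hu) _ hv, hτ.mul _ (H'.inv_mem hv') _ hu,
      MulOn.inv' hτ hv']
  have e2 : τ' (v'⁻¹ * u * v) = (τ' v')⁻¹ * τ' u * τ' v := by
    rw [hτ'.mul _ (H'.mul_mem (H'.inv_mem hv') hu) _ hv, hτ'.mul _ (H'.inv_mem hv') _ hu,
      MulOn.inv' hτ' hv']
  rw [e1, e2] at hgk
  calc τ' v' * g b * (τ v')⁻¹ * τ u = τ' v' * (g b * ((τ v')⁻¹ * τ u * τ v)) * (τ v)⁻¹ := by group
    _ = τ' v' * ((τ' v')⁻¹ * τ' u * τ' v * g b) * (τ v)⁻¹ := by rw [hgk]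
    _ = τ' u * (τ' v * g b * (τ v)⁻¹) := by group

open Classical in
/-- The matrices of the representation induced from `τ`. -/
noncomputable def indM {Ω n : Type} (H' : Subgroup F) (t : Ω → F) (τ : F → Matrix n n ℂ) (x : F) :
    Matrix (Ω × n) (Ω × n) ℂ :=
  Matrix.of fun p q => if (t p.1)⁻¹ * x * t q.1 ∈ H' then τ ((t p.1)⁻¹ * x * t q.1) p.2 q.2 else 0

lemma indM_apply_of_mem {Ω n : Type} {H' : Subgroup F} {t : Ω → F} {τ : F → Matrix n n ℂ} {x : F}
    {p q : Ω × n} (h : (t p.1)⁻¹ * x * t q.1 ∈ H') :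
    indM H' t τ x p q = τ ((t p.1)⁻¹ * x * t q.1) p.2 q.2 := by
  simp [indM, h]

lemma indM_apply_of_notMem {Ω n : Type} {H' : Subgroup F} {t : Ω → F} {τ : F → Matrix n n ℂ}
    {x : F} {p q : Ω × n} (h : (t p.1)⁻¹ * x * t q.1 ∉ H') :
    indM H' t τ x p q = 0 := by
  simp [indM, h]

lemma Trans.existsUnique {Ω : Type} {H H' : Subgroup F} {t : Ω → F} (ht : Trans H H' t)
    {x : F} (hx : x ∈ H) (c : Ω) : ∃! c', (t c')⁻¹ * x * t c ∈ H' := by
  have := ht.uniq (x * t c) (H.mul_mem hx (ht.mem c))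
  simpa only [mul_assoc] using this

lemma Trans.eq_of_mem {Ω : Type} {H H' : Subgroup F} {t : Ω → F} (ht : Trans H H' t)
    {x : F} (hx : x ∈ H) {c c₁ c₂ : Ω} (h₁ : (t c₁)⁻¹ * x * t c ∈ H')
    (h₂ : (t c₂)⁻¹ * x * t c ∈ H') : c₁ = c₂ :=
  (ht.existsUnique hx c).unique h₁ h₂

lemma Trans.eq_of_mem' {Ω : Type} {H H' : Subgroup F} {t : Ω → F} (ht : Trans H H' t)
    {x : F} (hx : x ∈ H) {c c₁ c₂ : Ω} (h₁ : (t c)⁻¹ * x * t c₁ ∈ H')
    (h₂ : (t c)⁻¹ * x * t c₂ ∈ H') : c₁ = c₂ := by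
  refine ht.eq_of_mem (H.inv_mem hx) (c := c) ?_ ?_
  · have := H'.inv_mem h₁
    convert this using 1
    group
  · have := H'.inv_mem h₂
    convert this using 1
    group

/-- PC5c: `indM` is multiplicative. -/
theorem PC5c' {Ω n : Type} [Fintype Ω] [DecidableEq Ω] [Fintype n] [DecidableEq n]
    {H H' : Subgroup F} {t : Ω → F} (ht : Trans H H' t) (τ : F → Matrix n n ℂ)
    (hτ : MulOn H' τ) : MulOn H (indM H' t τ) := by
  constructor
  · ext p q
    rw [Matrix.one_apply]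
    by_cases hpq : p.1 = q.1
    · have h1 : (t p.1)⁻¹ * 1 * t q.1 = 1 := by rw [hpq]; group
      rw [indM_apply_of_mem (by rw [h1]; exact H'.one_mem), h1, hτ.one, Matrix.one_apply]
      by_cases h2 : p.2 = q.2
      · rw [if_pos h2, if_pos (Prod.ext hpq h2)]
      · rw [if_neg h2, if_neg fun h => h2 (congrArg Prod.snd h)]
    · rw [indM_apply_of_notMem, if_neg fun h => hpq (congrArg Prod.fst h)]
      intro h
      refine hpq (ht.eq_of_mem' H.one_mem (c := p.1) ?_ h)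
      simp
  · intro x hx y hy
    ext p q
    rw [Matrix.mul_apply]
    obtain ⟨c, hc, -⟩ := ht.existsUnique hy q.1
    have hzero : ∀ d, d ≠ c → (t d)⁻¹ * y * t q.1 ∉ H' := fun d hd h =>
      hd (ht.eq_of_mem hy h hc)
    rw [Fintype.sum_prod_type, Finset.sum_eq_single c]
    · by_cases hp : (t p.1)⁻¹ * x * t c ∈ H'
      · have e : (t p.1)⁻¹ * (x * y) * t q.1 = ((t p.1)⁻¹ * x * t c) * ((t c)⁻¹ * y * t q.1) := by
          group
        have hm : (t p.1)⁻¹ * (x * y) * t q.1 ∈ H' := by rw [e]; exact H'.mul_mem hp hc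
        rw [indM_apply_of_mem hm, e, hτ.mul _ hp _ hc, Matrix.mul_apply]
        refine Finset.sum_congr rfl fun j _ => ?_
        rw [indM_apply_of_mem (p := p) (q := (c, j)) hp,
          indM_apply_of_mem (p := (c, j)) (q := q) hc]
      · rw [indM_apply_of_notMem]
        · symm
          refine Finset.sum_eq_zero fun j _ => ?_
          rw [indM_apply_of_notMem (p := p) (q := (c, j)) hp, zero_mul]
        · intro h
          apply hp
          have e : (t p.1)⁻¹ * x * t c =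
              ((t p.1)⁻¹ * (x * y) * t q.1) * ((t c)⁻¹ * y * t q.1)⁻¹ := by group
          rw [e]
          exact H'.mul_mem h (H'.inv_mem hc)
    · intro d _ hd
      refine Finset.sum_eq_zero fun j _ => ?_
      rw [indM_apply_of_notMem (p := (d, j)) (q := q) (hzero d hd), mul_zero]
    · intro h
      exact absurd (Finset.mem_univ c) h

/-- The permutation of `Ω` defined by `x`. -/
noncomputable def permT {Ω : Type} [Finite Ω] {H H' : Subgroup F} {t : Ω → F} (ht : Trans H H' t)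
    (x : F) (hx : x ∈ H) : Equiv.Perm Ω :=
  Equiv.ofBijective (fun c => (ht.existsUnique hx c).choose) <| by
    rw [Finite.injective_iff_bijective.symm]
    intro c₁ c₂ h
    have h₁ := (ht.existsUnique hx c₁).choose_spec.1
    have h₂ := (ht.existsUnique hx c₂).choose_spec.1
    simp only at h
    rw [← h] at h₂
    exact ht.eq_of_mem' hx h₁ h₂

lemma permT_spec {Ω : Type} [Finite Ω] {H H' : Subgroup F} {t : Ω → F} (ht : Trans H H' t)
    (x : F) (hx : x ∈ H) (c : Ω) : (t (permT ht x hx c))⁻¹ * x * t c ∈ H' :=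
  (ht.existsUnique hx c).choose_spec.1

lemma mem_iff_permT {Ω : Type} [Finite Ω] {H H' : Subgroup F} {t : Ω → F} (ht : Trans H H' t)
    (x : F) (hx : x ∈ H) (c c' : Ω) : (t c')⁻¹ * x * t c ∈ H' ↔ c' = permT ht x hx c :=
  ⟨fun h => ht.eq_of_mem hx h (permT_spec ht x hx c), fun h => h ▸ permT_spec ht x hx c⟩

/-- block permutation matrices -/
lemma indM_eq {Ω n : Type} [Fintype Ω] [DecidableEq Ω] [Fintype n] [DecidableEq n]
    {H H' : Subgroup F} {t : Ω → F} (ht : Trans H H' t) (τ : F → Matrix n n ℂ) (x : F)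
    (hx : x ∈ H) :
    indM H' t τ x =
      ((blockDiagonal fun c => τ ((t c)⁻¹ * x * t ((permT ht x hx).symm c))).submatrix
        (Equiv.prodComm Ω n) (Equiv.prodComm Ω n)).submatrix id
          (Equiv.prodCongr (permT ht x hx) (Equiv.refl n)) := by
  ext p q
  simp only [submatrix_apply, id, Equiv.prodComm_apply, Equiv.prodCongr_apply, Equiv.coe_refl,
    Prod.map, Prod.swap, blockDiagonal_apply]
  by_cases h : p.1 = permT ht x hx q.1
  · rw [if_pos h, indM_apply_of_mem ((mem_iff_permT ht x hx _ _).2 h)]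
    rw [h, Equiv.symm_apply_apply]
  · rw [if_neg h, indM_apply_of_notMem (fun h' => h ((mem_iff_permT ht x hx _ _).1 h'))]

open Classical in
/-- PC5d: the determinant, for `τ = χ ⊗ σ`. -/
theorem PC5d' {Ω n : Type} [Fintype Ω] [DecidableEq Ω] [Fintype n] [DecidableEq n]
    {H H' : Subgroup F} {t : Ω → F} (ht : Trans H H' t)
    (x : F) (hx : x ∈ H) : ∃ ε : ℂ, ε ^ 2 = 1 ∧
      ∀ (χ : F → ℂˣ) (σ : F → SpecialLinearGroup n ℂ),
      (indM H' t (fun y => (χ y : ℂ) • (σ y).1) x).det =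
        ε * (∏ p : Ω × Ω, if (t p.1)⁻¹ * x * t p.2 ∈ H' then
          ((χ ((t p.1)⁻¹ * x * t p.2) : ℂˣ) : ℂ) else 1) ^ Fintype.card n := by
  refine ⟨((Equiv.Perm.sign (Equiv.prodCongr (permT ht x hx) (Equiv.refl n)) : ℤˣ) : ℤ), ?_, ?_⟩
  · rcases Int.units_eq_one_or
      (Equiv.Perm.sign (Equiv.prodCongr (permT ht x hx) (Equiv.refl n))) with h | h <;>
    simp [h]
  · intro χ σ
    rw [indM_eq ht _ x hx, Matrix.det_permute', det_submatrix_equiv_self, det_blockDiagonal]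
    congr 1
    rw [Fintype.prod_prod_type, ← Finset.prod_pow]
    refine Finset.prod_congr rfl fun c _ => ?_
    rw [det_smul, (σ _).2, mul_one]
    congr 1
    rw [Finset.prod_eq_single ((permT ht x hx).symm c)]
    · rw [if_pos]
      rw [mem_iff_permT ht x hx, Equiv.apply_symm_apply]
    · intro d _ hd
      rw [if_neg]
      intro h
      apply hd
      have := (mem_iff_permT ht x hx d c).1 h
      rw [this, Equiv.symm_apply_apply]
    · intro h
      exact absurd (Finset.mem_univ _) h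

/-- PC5e: conjugation. -/
theorem PC5e' {Ω n : Type} [Fintype Ω] [DecidableEq Ω] [Fintype n] [DecidableEq n]
    {H' : Subgroup F} {t : Ω → F}
    (τ τ' : F → Matrix n n ℂ) (y : F) (P : Ω → (Matrix n n ℂ)ˣ)
    (hP : ∀ c c', (t c')⁻¹ * y * t c ∈ H' →
      (P c').1 * τ ((t c')⁻¹ * y * t c) = τ' ((t c')⁻¹ * y * t c) * (P c).1) :
    ∃ Q : (Matrix (Ω × n) (Ω × n) ℂ)ˣ, Q.1 * indM H' t τ y = indM H' t τ' y * Q.1 := by
  let blk : (Ω → Matrix n n ℂ) → Matrix (Ω × n) (Ω × n) ℂ := fun A =>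
    (blockDiagonal A).submatrix (Equiv.prodComm Ω n) (Equiv.prodComm Ω n)
  have hmul : ∀ A B, blk A * blk B = blk (fun c => A c * B c) := by
    intro A B
    show _ = (blockDiagonal _).submatrix _ _
    rw [blockDiagonal_mul, submatrix_mul_equiv]
  have hone : blk (fun _ => 1) = 1 := by
    have : (fun _ : Ω => (1 : Matrix n n ℂ)) = 1 := rfl
    show (blockDiagonal (fun _ => (1 : Matrix n n ℂ))).submatrix _ _ = 1
    rw [this, blockDiagonal_one, submatrix_one_equiv]
  refine ⟨⟨blk fun c => (P c).1, blk fun c => ((P c)⁻¹).1, ?_, ?_⟩, ?_⟩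
  · rw [hmul]
    simp [hone]
  · rw [hmul]
    simp [hone]
  · ext p q
    show (blk (fun c => (P c).1) * indM H' t τ y) p q = (indM H' t τ' y * blk fun c => (P c).1) p q
    have hblk : ∀ (A : Ω → Matrix n n ℂ) (p q : Ω × n), blk A p q =
        if p.1 = q.1 then A p.1 p.2 q.2 else 0 := by
      intro A p q
      show (blockDiagonal A) (p.2, p.1) (q.2, q.1) = _
      rw [blockDiagonal_apply]
    rw [Matrix.mul_apply, Matrix.mul_apply, Fintype.sum_prod_type, Fintype.sum_prod_type,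
      Finset.sum_eq_single p.1, Finset.sum_eq_single q.1]
    · by_cases h : (t p.1)⁻¹ * y * t q.1 ∈ H'
      · have := congrFun (congrFun (hP q.1 p.1 h) p.2) q.2
        rw [Matrix.mul_apply, Matrix.mul_apply] at this
        convert this using 2 with j _ j _
        · rw [hblk, if_pos rfl, indM_apply_of_mem (p := (p.1, j)) (q := q) h]
        · rw [hblk, if_pos rfl, indM_apply_of_mem (p := p) (q := (q.1, j)) h]
      · rw [Finset.sum_eq_zero, Finset.sum_eq_zero]
        · intro j _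
          rw [indM_apply_of_notMem (p := p) (q := (q.1, j)) h, zero_mul]
        · intro j _
          rw [indM_apply_of_notMem (p := (p.1, j)) (q := q) h, mul_zero]
    · intro d _ hd
      refine Finset.sum_eq_zero fun j _ => ?_
      rw [hblk, if_neg hd, mul_zero]
    · intro h
      exact absurd (Finset.mem_univ _) h
    · intro d _ hd
      refine Finset.sum_eq_zero fun j _ => ?_
      rw [hblk, if_neg (Ne.symm hd), zero_mul]
    · intro h
      exact absurd (Finset.mem_univ _) h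

/-! ### The same statements with exactly the hypotheses of the interface file -/

theorem PC5b {Ω : Type} [Finite Ω] {H H' : Subgroup F} (_hle : H' ≤ H) {t : Ω → F}
    (_ht : Trans H H' t) {G : Type*} [Group G] (τ τ' : F → G) (hτ : MulOn H' τ)
    (hτ' : MulOn H' τ') (y : F) (_hy : y ∈ H)
    (hc : ∀ (c : Ω) (k : ℤ), (t c)⁻¹ * y ^ k * t c ∈ H' →
      IsConj (τ ((t c)⁻¹ * y ^ k * t c)) (τ' ((t c)⁻¹ * y ^ k * t c))) :
    ∃ P : Ω → G, ∀ c c', (t c')⁻¹ * y * t c ∈ H' →
      P c' * τ ((t c')⁻¹ * y * t c) = τ' ((t c')⁻¹ * y * t c) * P c :=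
  PC5b' τ τ' hτ hτ' y hc

theorem PC5c {Ω n : Type} [Fintype Ω] [DecidableEq Ω] [Fintype n] [DecidableEq n]
    {H H' : Subgroup F} (_hle : H' ≤ H) {t : Ω → F} (ht : Trans H H' t) (τ : F → Matrix n n ℂ)
    (hτ : MulOn H' τ) : MulOn H (indM H' t τ) :=
  PC5c' ht τ hτ

open Classical in
theorem PC5d {Ω n : Type} [Fintype Ω] [DecidableEq Ω] [Fintype n] [DecidableEq n]
    {H H' : Subgroup F} (_hle : H' ≤ H) {t : Ω → F} (ht : Trans H H' t)
    (x : F) (hx : x ∈ H) : ∃ ε : ℂ, ε ^ 2 = 1 ∧ ∀ (χ : F → ℂˣ) (σ : F → SpecialLinearGroup n ℂ),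
      MulOn H' χ → MulOn H' σ →
      (indM H' t (fun y => (χ y : ℂ) • (σ y).1) x).det =
        ε * (∏ p : Ω × Ω, if (t p.1)⁻¹ * x * t p.2 ∈ H' then
          ((χ ((t p.1)⁻¹ * x * t p.2) : ℂˣ) : ℂ) else 1) ^ Fintype.card n := by
  obtain ⟨ε, h1, h2⟩ := PC5d' (n := n) ht x hx
  exact ⟨ε, h1, fun χ σ _ _ => h2 χ σ⟩

theorem PC5e {Ω n : Type} [Fintype Ω] [DecidableEq Ω] [Fintype n] [DecidableEq n]
    {H H' : Subgroup F} (_hle : H' ≤ H) {t : Ω → F} (_ht : Trans H H' t)
    (τ τ' : F → Matrix n n ℂ) (y : F) (_hy : y ∈ H) (P : Ω → (Matrix n n ℂ)ˣ)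
    (hP : ∀ c c', (t c')⁻¹ * y * t c ∈ H' →
      (P c').1 * τ ((t c')⁻¹ * y * t c) = τ' ((t c')⁻¹ * y * t c) * (P c).1) :
    ∃ Q : (Matrix (Ω × n) (Ω × n) ℂ)ˣ, Q.1 * indM H' t τ y = indM H' t τ' y * Q.1 :=
  PC5e' τ τ' y P hP

end Vale.Agent.P002.H377
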