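import Vale.Agent.P002.H252.Ba2

/-!
# Semisimple representations are determined by their traces
-/

namespace Vale.Agent.P002.H377

open Module Vale.Agent.P002.H252

section mods

variable {B : Type} [Ring B] [Algebra ℂ B]

/-- the trace of the action of an element -/
noncomputable def trb (V : Type) [AddCommGroup V] [Module ℂ V] [Module B V] [IsScalarTower ℂ B V]
    (b : B) : ℂ := LinearMap.trace ℂ V (Algebra.lsmul ℂ ℂ V b)

theorem trb_congr {V V' : Type} [AddCommGroup V] [Module ℂ V] [Module B V] [IsScalarTower ℂ B V]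
    [AddCommGroup V'] [Module ℂ V'] [Module B V'] [IsScalarTower ℂ B V'] (e : V ≃ₗ[B] V') (b : B) :
    trb V b = trb V' b := by
  unfold trb
  rw [← LinearMap.trace_conj' (Algebra.lsmul ℂ ℂ V b) (e.restrictScalars ℂ)]
  congr 1
  ext v
  change e (b • e.symm v) = b • v
  rw [map_smul, LinearEquiv.apply_symm_apply]

theorem trb_prod {V V' : Type} [AddCommGroup V] [Module ℂ V] [Module B V] [IsScalarTower ℂ B V]
    [AddCommGroup V'] [Module ℂ V'] [Module B V'] [IsScalarTower ℂ B V']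
    [FiniteDimensional ℂ V] [FiniteDimensional ℂ V'] (b : B) :
    trb (V × V') b = trb V b + trb V' b := by
  unfold trb
  rw [← LinearMap.trace_prodMap']
  congr 1

/-- an element that kills `V'` kills `V`, if the traces agree -/
theorem kills {V V' : Type} [AddCommGroup V] [Module ℂ V] [Module B V] [IsScalarTower ℂ B V]
    [AddCommGroup V'] [Module ℂ V'] [Module B V'] [IsScalarTower ℂ B V']
    [FiniteDimensional ℂ V] [FiniteDimensional ℂ V'] [IsSemisimpleModule B V]
    (htr : ∀ b : B, trb V b = trb V' b) (a : B) (ha : ∀ v : V', a • v = 0) (v : V) :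
    a • v = 0 := by
  obtain ⟨A, hA⟩ : ∃ A : Subalgebra ℂ (End ℂ V), A = (Algebra.lsmul ℂ ℂ V : B →ₐ[ℂ] _).range :=
    ⟨_, rfl⟩
  have hmem : ∀ b : B, Algebra.lsmul ℂ ℂ V b ∈ A := fun b => hA ▸ ⟨b, rfl⟩
  have hex : ∀ x ∈ A, ∃ b : B, Algebra.lsmul ℂ ℂ V b = x := by
    intro x hx
    rw [hA] at hx
    exact hx
  have hss : SSf (V := V) (N := A) (fun x => A.val x) := by
    intro W hW
    obtain ⟨W', hW'⟩ := exists_isCompl
      (⟨⟨⟨W, fun {a b} ha hb => W.add_mem ha hb⟩, W.zero_mem⟩,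
        fun b w hw => hW ⟨Algebra.lsmul ℂ ℂ V b, hmem b⟩ w hw⟩ : Submodule B V)
    refine ⟨W'.restrictScalars ℂ, fun x w hw => ?_, ?_⟩
    · obtain ⟨b, hb⟩ := hex x.1 x.2
      change x.1 w ∈ W'
      rw [← hb]
      exact W'.smul_mem b hw
    · constructor
      · rw [disjoint_iff, eq_bot_iff]
        intro v hv
        exact hW'.disjoint.le_bot (x := v) ⟨hv.1, hv.2⟩
      · rw [codisjoint_iff, eq_top_iff]
        intro v _
        have h3 : v ∈ (⊤ : Submodule B V) := Submodule.mem_top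
        rw [← hW'.codisjoint.eq_top] at h3
        obtain ⟨x, hx, y, hy, rfl⟩ := Submodule.mem_sup.1 h3
        exact Submodule.add_mem_sup hx hy
  have h := trace_nondeg A.val Subtype.val_injective hss ⟨Algebra.lsmul ℂ ℂ V a, hmem a⟩ ?_
  · have h1 : Algebra.lsmul ℂ ℂ V a = 0 := congrArg Subtype.val h
    have h2 := LinearMap.congr_fun h1 v
    exact h2
  · intro x
    obtain ⟨b, hb⟩ := hex x.1 x.2
    change LinearMap.trace ℂ V (x.1 * Algebra.lsmul ℂ ℂ V a) = 0
    rw [← hb, ← map_mul]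
    have h1 := htr (b * a)
    unfold trb at h1
    rw [h1]
    have h2 : (Algebra.lsmul ℂ ℂ V' (b * a) : End ℂ V') = 0 := by
      ext w
      change (b * a) • w = 0
      rw [mul_smul, ha, smul_zero]
    rw [h2, map_zero]

/-- a simple module killed by the annihilator of a semisimple module embeds into it -/
theorem embeds {S V' : Type} [AddCommGroup S] [Module B S] [IsSimpleModule B S]
    [AddCommGroup V'] [Module ℂ V'] [Module B V'] [IsScalarTower ℂ B V']
    [FiniteDimensional ℂ V'] [IsSemisimpleModule B V']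
    (h : ∀ a : B, (∀ v : V', a • v = 0) → ∀ s : S, a • s = 0) :
    ∃ j : S →ₗ[B] V', Function.Injective j := by
  obtain ⟨b⟩ : Nonempty (Basis (Fin (finrank ℂ V')) ℂ V') := ⟨finBasis ℂ V'⟩
  let g : B →ₗ[B] (Fin (finrank ℂ V') → V') :=
    LinearMap.pi fun i => LinearMap.toSpanSingleton B V' (b i)
  obtain ⟨s, hs⟩ : ∃ s : S, s ≠ 0 := by
    have := IsSimpleModule.nontrivial B S
    exact exists_ne 0
  let p : B →ₗ[B] S := LinearMap.toSpanSingleton B S s
  have hp : LinearMap.ker g ≤ LinearMap.ker p := by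
    intro a ha
    refine h a (fun v => ?_) s
    have h1 : ∀ i, a • b i = 0 := fun i => congrFun ha i
    have h2 : Algebra.lsmul ℂ ℂ V' a = 0 := b.ext fun i => h1 i
    exact LinearMap.congr_fun h2 v
  let q : (B ⧸ LinearMap.ker g) →ₗ[B] S := (LinearMap.ker g).liftQ p hp
  let e : (B ⧸ LinearMap.ker g) ≃ₗ[B] LinearMap.range g := g.quotKerEquivRange
  let f : LinearMap.range g →ₗ[B] S := q ∘ₗ e.symm.toLinearMap
  have hf : f ≠ 0 := by
    intro hf
    have h1 := LinearMap.congr_fun hf (e (Submodule.Quotient.mk 1))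
    have h2 : f (e (Submodule.Quotient.mk 1)) = p 1 := by
      change q (e.symm (e (Submodule.Quotient.mk 1))) = p 1
      rw [LinearEquiv.symm_apply_apply]
      rfl
    rw [h2] at h1
    change (1 : B) • s = 0 at h1
    rw [one_smul] at h1
    exact hs h1
  obtain ⟨k, hk⟩ := IsSemisimpleModule.lifting_property f (LinearMap.surjective_of_ne_zero hf)
    (LinearMap.id : S →ₗ[B] S)
  have hk0 : k s ≠ 0 := by
    intro h0
    have h1 := LinearMap.congr_fun hk s
    change f (k s) = s at h1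
    rw [h0, map_zero] at h1
    exact hs h1.symm
  obtain ⟨i, hi⟩ : ∃ i, (k s).1 i ≠ 0 := by
    by_contra hcon
    push Not at hcon
    exact hk0 (Subtype.ext (funext hcon))
  refine ⟨LinearMap.proj i ∘ₗ (LinearMap.range g).subtype ∘ₗ k, ?_⟩
  refine LinearMap.injective_of_ne_zero fun h0 => hi ?_
  exact LinearMap.congr_fun h0 s

theorem iso_of_trace (n : ℕ) : ∀ (V V' : Type) [AddCommGroup V] [Module ℂ V] [Module B V]
    [IsScalarTower ℂ B V] [AddCommGroup V'] [Module ℂ V'] [Module B V'] [IsScalarTower ℂ B V']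
    [FiniteDimensional ℂ V] [FiniteDimensional ℂ V'] [IsSemisimpleModule B V]
    [IsSemisimpleModule B V'] (_ : finrank ℂ V = n) (_ : ∀ b : B, trb V b = trb V' b),
    Nonempty (V ≃ₗ[B] V') := by
  induction n using Nat.strong_induction_on with
  | _ n ih =>
  intro V V' _ _ _ _ _ _ _ _ _ _ _ _ hn htr
  have hdim : finrank ℂ V = finrank ℂ V' := by
    have h1 := htr 1
    unfold trb at h1
    rw [map_one (Algebra.lsmul ℂ ℂ V : B →ₐ[ℂ] _), map_one (Algebra.lsmul ℂ ℂ V' : B →ₐ[ℂ] _),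
      LinearMap.trace_one, LinearMap.trace_one] at h1
    exact_mod_cast h1
  rcases subsingleton_or_nontrivial V with hV | hV
  · have h0 : finrank ℂ V = 0 := finrank_zero_of_subsingleton
    have hV' : Subsingleton V' := by
      rw [hdim] at h0
      exact finrank_zero_iff.1 h0
    exact ⟨{ toFun := 0, map_add' := fun _ _ => Subsingleton.elim _ _,
             map_smul' := fun _ _ => Subsingleton.elim _ _, invFun := 0,
             left_inv := fun _ => Subsingleton.elim _ _,
             right_inv := fun _ => Subsingleton.elim _ _ }⟩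
  · obtain ⟨S, hS⟩ := IsSemisimpleModule.exists_simple_submodule B V
    obtain ⟨j, hj⟩ := embeds (S := S) (V' := V') fun a ha s =>
      Subtype.ext (kills htr a ha s.1)
    obtain ⟨W, hW⟩ := exists_isCompl S
    obtain ⟨W', hW'⟩ := exists_isCompl (LinearMap.range j)
    let e1 : (S × W) ≃ₗ[B] V := Submodule.prodEquivOfIsCompl S W hW
    let e2 : (LinearMap.range j × W') ≃ₗ[B] V' := Submodule.prodEquivOfIsCompl _ W' hW'
    let e3 : S ≃ₗ[B] LinearMap.range j := LinearEquiv.ofInjective j hj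
    have hSf : FiniteDimensional ℂ S :=
      inferInstanceAs (FiniteDimensional ℂ (S.restrictScalars ℂ))
    have hWf : FiniteDimensional ℂ W :=
      inferInstanceAs (FiniteDimensional ℂ (W.restrictScalars ℂ))
    have hRf : FiniteDimensional ℂ (LinearMap.range j) :=
      inferInstanceAs (FiniteDimensional ℂ ((LinearMap.range j).restrictScalars ℂ))
    have hWf' : FiniteDimensional ℂ W' :=
      inferInstanceAs (FiniteDimensional ℂ (W'.restrictScalars ℂ))
    have hlt : finrank ℂ W < n := by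
      have h1 : finrank ℂ (S × W) = finrank ℂ V := (e1.restrictScalars ℂ).finrank_eq
      rw [finrank_prod] at h1
      have h2 : 0 < finrank ℂ S := by
        have := IsSimpleModule.nontrivial B S
        exact finrank_pos
      omega
    obtain ⟨e4⟩ := ih _ hlt W W' rfl fun b => by
      have h1 := trb_congr e1 b
      have h2 := trb_congr e2 b
      have h3 := trb_congr e3 b
      rw [trb_prod] at h1 h2
      have h4 := htr b
      rw [← h1, ← h2, h3] at h4
      exact add_left_cancel h4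
    exact ⟨(e1.symm.trans (LinearEquiv.prodCongr e3 e4)).trans e2⟩

end mods

/-- two semisimple representations of an algebra with the same traces are isomorphic -/
theorem iso_of_trace_hom {B : Type} [Ring B] [Algebra ℂ B] {V V' : Type} [AddCommGroup V]
    [Module ℂ V] [AddCommGroup V'] [Module ℂ V'] [FiniteDimensional ℂ V] [FiniteDimensional ℂ V']
    (f : B →ₐ[ℂ] End ℂ V) (f' : B →ₐ[ℂ] End ℂ V') (hf : SSf f) (hf' : SSf f')
    (htr : ∀ b, LinearMap.trace ℂ V (f b) = LinearMap.trace ℂ V' (f' b)) :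
    ∃ e : V ≃ₗ[ℂ] V', ∀ b v, e (f b v) = f' b (e v) := by
  let := modOf f
  let := modOf f'
  have := towerOf f
  have := towerOf f'
  have := semisimple_of_SSf f hf
  have := semisimple_of_SSf f' hf'
  obtain ⟨e⟩ := iso_of_trace (B := B) (finrank ℂ V) V V' rfl fun b => htr b
  exact ⟨e.restrictScalars ℂ, fun b v => e.map_smul b v⟩

/-- **Semisimple representations in `SL_r(ℂ)` with the same traces are conjugate.** -/
theorem conj_of_trace {F : Type} [Group F] (Z : Subgroup F) {r : ℕ}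
    (ρ ρ' : F →* Matrix.SpecialLinearGroup (Fin r) ℂ)
    (hss : ∀ W : Submodule ℂ (Fin r → ℂ), (∀ z ∈ Z, ∀ v ∈ W, (ρ z).1.mulVec v ∈ W) →
      ∃ W' : Submodule ℂ (Fin r → ℂ), (∀ z ∈ Z, ∀ v ∈ W', (ρ z).1.mulVec v ∈ W') ∧ IsCompl W W')
    (hss' : ∀ W : Submodule ℂ (Fin r → ℂ), (∀ z ∈ Z, ∀ v ∈ W, (ρ' z).1.mulVec v ∈ W) →
      ∃ W' : Submodule ℂ (Fin r → ℂ), (∀ z ∈ Z, ∀ v ∈ W', (ρ' z).1.mulVec v ∈ W') ∧ IsCompl W W')
    (htr : ∀ z ∈ Z, (ρ z).1.trace = (ρ' z).1.trace) :
    ∃ g : Matrix.SpecialLinearGroup (Fin r) ℂ, ∀ z ∈ Z, ρ' z = g * ρ z * g⁻¹ := by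
  classical
  -- the representations as algebra homomorphisms
  let act : (F →* Matrix.SpecialLinearGroup (Fin r) ℂ) → (Z →* End ℂ (Fin r → ℂ)) := fun ρ =>
    { toFun := fun z => Matrix.toLin' (ρ z.1).1
      map_one' := by
        rw [Submonoid.coe_one, map_one]
        exact Matrix.toLin'_one
      map_mul' := fun a b => by
        rw [Subgroup.coe_mul, map_mul]
        exact Matrix.toLin'_mul _ _ }
  let f : (F →* Matrix.SpecialLinearGroup (Fin r) ℂ) → (MonoidAlgebra ℂ Z →ₐ[ℂ] End ℂ (Fin r → ℂ)) :=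
    fun ρ => MonoidAlgebra.lift ℂ _ Z (act ρ)
  have hf : ∀ ρ z, f ρ (MonoidAlgebra.of ℂ Z z) = Matrix.toLin' (ρ z.1).1 := fun ρ z =>
    MonoidAlgebra.lift_of (act ρ) z
  have hS : ∀ ρ : F →* Matrix.SpecialLinearGroup (Fin r) ℂ,
      (∀ W : Submodule ℂ (Fin r → ℂ), (∀ z ∈ Z, ∀ v ∈ W, (ρ z).1.mulVec v ∈ W) →
      ∃ W' : Submodule ℂ (Fin r → ℂ), (∀ z ∈ Z, ∀ v ∈ W', (ρ z).1.mulVec v ∈ W') ∧
        IsCompl W W') → SSf (f ρ) := by
    intro ρ h W hW
    obtain ⟨W', h1, h2⟩ := h W fun z hz v hv => by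
      have h3 := hW (MonoidAlgebra.of ℂ Z ⟨z, hz⟩) v hv
      rw [hf, Matrix.toLin'_apply] at h3
      exact h3
    refine ⟨W', fun b => ?_, h2⟩
    induction b using MonoidAlgebra.induction_on with
    | of z =>
      intro v hv
      rw [hf, Matrix.toLin'_apply]
      exact h1 z.1 z.2 v hv
    | add x y hx hy =>
      intro v hv
      rw [map_add]
      exact W'.add_mem (hx v hv) (hy v hv)
    | smul c x hx =>
      intro v hv
      rw [map_smul]
      exact W'.smul_mem c (hx v hv)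
  obtain ⟨e, he⟩ := iso_of_trace_hom (f ρ) (f ρ') (hS ρ hss) (hS ρ' hss') (by
    intro b
    induction b using MonoidAlgebra.induction_on with
    | of z =>
      rw [hf, hf, Matrix.trace_toLin'_eq, Matrix.trace_toLin'_eq]
      exact htr z.1 z.2
    | add x y hx hy => rw [map_add, map_add, map_add, map_add, hx, hy]
    | smul c x hx => rw [map_smul, map_smul, map_smul, map_smul, hx])
  obtain ⟨P, hP⟩ : ∃ P : Matrix (Fin r) (Fin r) ℂ, P = LinearMap.toMatrix' e.toLinearMap := ⟨_, rfl⟩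
  obtain ⟨Q, hQ⟩ : ∃ Q : Matrix (Fin r) (Fin r) ℂ, Q = LinearMap.toMatrix' e.symm.toLinearMap :=
    ⟨_, rfl⟩
  have hPQ : P * Q = 1 := by
    rw [hP, hQ, ← LinearMap.toMatrix'_comp]
    have : e.toLinearMap ∘ₗ e.symm.toLinearMap = LinearMap.id := by
      ext v
      simp
    rw [this, LinearMap.toMatrix'_id]
  have hdet : P.det ≠ 0 := by
    intro h0
    have h1 := congrArg Matrix.det hPQ
    rw [Matrix.det_mul, h0, zero_mul, Matrix.det_one] at h1
    exact zero_ne_one h1
  have hint : ∀ z ∈ Z, P * (ρ z).1 = (ρ' z).1 * P := by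
    intro z hz
    apply Matrix.toLin'.injective
    rw [Matrix.toLin'_mul, Matrix.toLin'_mul, hP, Matrix.toLin'_toMatrix']
    have h1 := he (MonoidAlgebra.of ℂ Z ⟨z, hz⟩)
    rw [hf, hf] at h1
    exact LinearMap.ext fun v => h1 v
  rcases Nat.eq_zero_or_pos r with hr | hr
  · subst hr
    exact ⟨1, fun z _ => Subtype.ext (Subsingleton.elim _ _)⟩
  · obtain ⟨c, hc⟩ := IsAlgClosed.exists_pow_nat_eq (P.det)⁻¹ hr
    have hc1 : (c • P).det = 1 := by
      rw [Matrix.det_smul, Fintype.card_fin, hc, inv_mul_cancel₀ hdet]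
    obtain ⟨g, hg⟩ : ∃ g : Matrix.SpecialLinearGroup (Fin r) ℂ, g.1 = c • P := ⟨⟨c • P, hc1⟩, rfl⟩
    refine ⟨g, fun z hz => ?_⟩
    have h1 : ρ' z * g = g * ρ z := by
      apply Subtype.ext
      change (ρ' z).1 * g.1 = g.1 * (ρ z).1
      rw [hg, mul_smul_comm, smul_mul_assoc, hint z hz]
    rw [← h1, mul_assoc, mul_inv_cancel, mul_one]

end Vale.Agent.P002.H377
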