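import Vale.Agent.P002.H377.VS3

/-!
# The base case of virtually solvable image, with an arbitrary subgroup acting by scalars
-/

namespace Vale.Agent.P002.H377

open Matrix NumberField Vale.Agent.P002.H2 Vale.Agent.P002R.Orb commutatorElement

/-- a subgroup is generated by finitely many elements modulo the commutators of a subgroup of
finite index -/
lemma fgZ {F : Type} [Group F] [Group.FG F] (A Z : Subgroup F) (hA : A.index ≠ 0) :
    ∃ (β : Type) (_ : Finite β) (z : β → F), (∀ j, z j ∈ Z) ∧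
      Z ≤ Subgroup.closure (Set.range z) ⊔ ⁅A, A⁆ := by
  classical
  have : A.FiniteIndex := ⟨hA⟩
  have hfg0 : Group.FG (Abelianization A) := QuotientGroup.fg (commutator A)
  have hfg : Module.Finite ℤ (Additive (Abelianization A)) := by
    rw [Module.Finite.iff_addGroup_fg]
    infer_instance
  have hno : IsNoetherian ℤ (Additive (Abelianization A)) := inferInstance
  let N : Subgroup (Abelianization A) := (Z.subgroupOf A).map Abelianization.of
  have hN : N.FG := by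
    rw [Subgroup.fg_iff_add_fg, ← AddSubgroup.toIntSubmodule_toAddSubgroup N.toAddSubgroup,
      ← Submodule.fg_iff_addSubgroup_fg]
    exact hno.noetherian _
  obtain ⟨T, hT⟩ := hN
  have hpre : ∀ t : T, ∃ a : A, (a : F) ∈ Z ∧ Abelianization.of a = t.1 := by
    intro t
    have h1 : t.1 ∈ N := by
      rw [← hT]
      exact Subgroup.subset_closure t.2
    obtain ⟨a, ha, h2⟩ := h1
    exact ⟨a, ha, h2⟩
  choose a haZ ha using hpre
  have hri : (A ⊓ Z).relIndex Z ≠ 0 := by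
    rw [Subgroup.inf_relIndex_right]
    exact fun h => hA (Subgroup.index_eq_zero_of_relIndex_eq_zero h)
  obtain ⟨t, ht⟩ := PC5a Z (A ⊓ Z) inf_le_right hri
  refine ⟨Fin ((A ⊓ Z).relIndex Z) ⊕ T, inferInstance, Sum.elim t fun x => (a x : F), ?_, ?_⟩
  · rintro (c | x)
    · exact ht.mem c
    · exact haZ x
  intro x hx
  obtain ⟨c, hc, -⟩ := ht.uniq x hx
  obtain ⟨G, hG⟩ : ∃ G, G = Subgroup.closure (Set.range (Sum.elim t fun x => (a x : F))) :=
    ⟨_, rfl⟩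
  rw [← hG]
  have ht' : t c ∈ G := by
    rw [hG]
    exact Subgroup.subset_closure ⟨Sum.inl c, rfl⟩
  have key : ∀ y : A, (y : F) ∈ Z → (y : F) ∈ G ⊔ ⁅A, A⁆ := by
    intro y hy
    have h1 : Abelianization.of y ∈ Subgroup.closure (T : Set (Abelianization A)) := by
      rw [hT]
      exact ⟨y, hy, rfl⟩
    have h2 : Subgroup.closure (T : Set (Abelianization A)) ≤
        (Subgroup.closure (Set.range a)).map Abelianization.of := by
      rw [Subgroup.closure_le]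
      intro s hs
      exact ⟨a ⟨s, hs⟩, Subgroup.subset_closure ⟨_, rfl⟩, ha ⟨s, hs⟩⟩
    obtain ⟨g, hg, hgy⟩ := h2 h1
    have h3 : g⁻¹ * y ∈ commutator A := by
      rw [← Abelianization.ker_of A, MonoidHom.mem_ker, map_mul, map_inv, hgy, inv_mul_cancel]
    have h4 : (g : F) ∈ G := by
      have h5 : (Subgroup.closure (Set.range a)).map A.subtype ≤ G := by
        rw [MonoidHom.map_closure, Subgroup.closure_le, hG]
        rintro _ ⟨_, ⟨s, rfl⟩, rfl⟩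
        exact Subgroup.subset_closure ⟨Sum.inr s, rfl⟩
      exact h5 ⟨g, hg, rfl⟩
    have h6 : ((g⁻¹ * y : A) : F) ∈ ⁅A, A⁆ := by
      have h7 : (commutator A).map A.subtype = ⁅A, A⁆ := by
        rw [commutator_def, Subgroup.map_commutator, ← MonoidHom.range_eq_map,
          Subgroup.range_subtype]
      rw [← h7]
      exact ⟨_, h3, rfl⟩
    have h8 : (y : F) = (g : F) * ((g⁻¹ * y : A) : F) := by
      rw [← Subgroup.coe_mul, mul_inv_cancel_left]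
    rw [h8]
    exact Subgroup.mul_mem_sup h4 h6
  have h1 := key ⟨(t c)⁻¹ * x, hc.1⟩ hc.2
  have h2 : x = t c * ((t c)⁻¹ * x) := by group
  rw [h2]
  exact Subgroup.mul_mem _ (Subgroup.mem_sup_left ht') h1

section

variable {ι : Type} {I : Type} [MulAction (FreeGroup ι) I]

/-- PC2 for one subgroup, arbitrary `C.Z` -/
theorem PC2_one' [Finite ι] (C : Ctx (FreeGroup ι) I) {s : ℕ}
    (w : Fin s → FreeGroup ι)
    (hRel : ∀ y, y ∈ C.Rel ↔ ∃ x j, ∃ a : ℤ, y = x * w j ^ a * x⁻¹) (N₀ : ℕ) (hN₀ : 0 < N₀)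
    (H : Subgroup (FreeGroup ι)) (hH : H.index ≠ 0) (hZH : C.Z ≤ H) (n : ℕ) (hn : 0 < n) :
    ∃ L : IntermediateField ℚ ℂ, FiniteDimensional ℚ L ∧
      ∀ L' : IntermediateField ℚ ℂ, L ≤ L' →
      ∀ σ : FreeGroup ι → SpecialLinearGroup (Fin n) ℂ,
        MulOn H σ → Adm C N₀ H (H2.lin σ) → VS H σ → D C L' H σ := by
  classical
  obtain ⟨A, hAH, hAi, hcore⟩ := coreA H hH n
  have hA0 : A.index ≠ 0 := by
    rw [← Subgroup.relIndex_mul_index hAH]
    exact Nat.mul_ne_zero hAi hH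
  have : Group.FG (FreeGroup ι) := inferInstance
  obtain ⟨β, hβ, b, hb, hbZ⟩ := fgZ A C.Z hA0
  obtain ⟨t, ht⟩ := PC5a ⊤ H le_top (by rwa [Subgroup.relIndex_top_right])
  choose d hd hd' using fun (q : Fin (H.relIndex ⊤) × Fin s) => exists_gen H (t q.1)⁻¹ (w q.2)
  let u : β ⊕ (Fin (H.relIndex ⊤) × Fin s) → FreeGroup ι := Sum.elim
    b (fun q => (t q.1)⁻¹ * w q.2 ^ d q * (t q.1)⁻¹⁻¹)
  have hu : ∀ j, u j ∈ H := by
    rintro (c | q)
    · exact hZH (hb c)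
    · exact hd q
  obtain ⟨L, hL, hcore⟩ := hcore (N₀ * n) (Nat.mul_pos hN₀ hn) u hu
  refine ⟨L, hL, fun L' hLL' σ hσ hadm hvs P hP hPσ => ?_⟩
  have hscal : ∀ z ∈ C.Z, ∃ c : ℂ, (σ z).1 = c • 1 := by
    intro z hz
    obtain ⟨c, hc⟩ := hadm.zscal z hz
    refine ⟨c, ?_⟩
    have h1 : Matrix.toLin' (σ z).1 = Matrix.toLin' (c • (1 : Matrix (Fin n) (Fin n) ℂ)) := by
      rw [map_smul, Matrix.toLin'_one]
      exact hc
    exact Matrix.toLin'.injective h1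
  have hroots : ∀ y ∈ C.Rel, y ∈ H → ∀ z, (σ y).1.charpoly.IsRoot z → z ^ (N₀ * n) = 1 := by
    intro y hy hyH z hz
    refine pow_root (σ y) (fun a b ha hb => ?_) z hz
    exact hadm.eig y hy hyH a b ((charpoly_root_lin _ _).1 ha) ((charpoly_root_lin _ _).1 hb)
  obtain ⟨hσA, hcore⟩ := hcore σ hσ hadm.irr hvs (by
    rintro (c | q) z hz
    · obtain ⟨e, he⟩ := hscal (u (Sum.inl c)) (hb c)
      have h1 : e ^ n = 1 := by
        have := (σ (u (Sum.inl c))).2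
        rw [he, det_smul, det_one, mul_one, Fintype.card_fin] at this
        exact this
      rw [he] at hz
      have h2 : (Matrix.toLin' (e • (1 : Matrix (Fin n) (Fin n) ℂ))) =
          e • (LinearMap.id : (Fin n → ℂ) →ₗ[ℂ] (Fin n → ℂ)) := by
        rw [map_smul, Matrix.toLin'_one]
      have h3 : z = e := by
        rw [charpoly_root_lin, h2] at hz
        obtain ⟨v, hv⟩ := hz.exists_hasEigenvector
        have h4 := hv.apply_eq_smul
        have h5 : e • v = z • v := h4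
        exact (smul_left_injective ℂ hv.2 h5).symm
      rw [h3, mul_comm, pow_mul, h1, one_pow]
    · refine hroots _ ?_ (hd q) z hz
      rw [hRel]
      exact ⟨_, _, _, rfl⟩)
  obtain ⟨σ', hmul, hint, hconj, hA, hPσ'⟩ := hcore P hP hPσ
  -- decomposition of elements
  have hdec : ∀ x : FreeGroup ι, ∃ h ∈ H, ∃ c, x = h * (t c)⁻¹ := by
    intro x
    obtain ⟨c, hc, -⟩ := ht.uniq x⁻¹ trivial
    refine ⟨((t c)⁻¹ * x⁻¹)⁻¹, H.inv_mem hc, c, ?_⟩
    group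
  refine ⟨σ', ⟨hmul, ⟨1, fun x hx i j => ?_⟩, ?_, ?_, ?_⟩, hPσ'⟩
  · rw [← mem_OL]
    have := OL_mono hLL' (hint x hx i j)
    simpa using this
  · -- on `Z`
    intro z hz
    have h1 : C.Z ≤ ((homOf hmul).eqLocus (homOf hσ)).map H.subtype := by
      refine hbZ.trans (sup_le ?_ ?_)
      · rw [Subgroup.closure_le]
        rintro _ ⟨c, rfl⟩
        refine ⟨⟨b c, hZH (hb c)⟩, ?_, rfl⟩
        obtain ⟨e, he⟩ := hscal (u (Sum.inl c)) (hb c)
        exact eq_of_isConj_scalar he (hconj (Sum.inl c))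
      · rw [Subgroup.commutator_le]
        intro g₁ h₁ g₂ h₂
        refine ⟨⁅(⟨g₁, hAH h₁⟩ : H), ⟨g₂, hAH h₂⟩⁆, ?_, rfl⟩
        exact (hA g₁ h₁ g₂ h₂).trans (hσA g₁ h₁ g₂ h₂).symm
    obtain ⟨y, hy, rfl⟩ := h1 hz
    exact hy
  · -- conjugacy classes
    intro y hy hyH
    obtain ⟨x, j, a, rfl⟩ := (hRel y).1 hy
    obtain ⟨h, hh, c, rfl⟩ := hdec x
    have e1 : h⁻¹ * (h * (t c)⁻¹ * w j ^ a * (h * (t c)⁻¹)⁻¹) * h =
        (t c)⁻¹ * w j ^ a * (t c)⁻¹⁻¹ := by group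
    have h1 : (t c)⁻¹ * w j ^ a * (t c)⁻¹⁻¹ ∈ H := by
      rw [← e1]
      exact H.mul_mem (H.mul_mem (H.inv_mem hh) hyH) hh
    obtain ⟨m, rfl⟩ := hd' (c, j) a h1
    have e2 : h * (t c)⁻¹ * w j ^ (d (c, j) * m) * (h * (t c)⁻¹)⁻¹ =
        h * u (Sum.inr (c, j)) ^ m * h⁻¹ := by
      show _ = h * ((t c)⁻¹ * w j ^ d (c, j) * (t c)⁻¹⁻¹) ^ m * h⁻¹
      rw [conj_zpow, ← _root_.zpow_mul]
      group
    have huH := hu (Sum.inr (c, j))
    have huH' := H.zpow_mem huH m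
    rw [e2, hmul.mul _ (H.mul_mem hh huH') _ (H.inv_mem hh), hmul.mul _ hh _ huH',
      hσ.mul _ (H.mul_mem hh huH') _ (H.inv_mem hh), hσ.mul _ hh _ huH',
      MulOn.inv' hmul hh, MulOn.inv' hσ hh, MulOn.zpow' hmul huH, MulOn.zpow' hσ huH]
    have h3 := isConj_zpow (hconj (Sum.inr (c, j))) m
    obtain ⟨b, hb⟩ := isConj_iff.1 h3
    refine isConj_iff.2 ⟨σ' h * b * (σ h)⁻¹, ?_⟩
    rw [← hb]
    group
  · -- virtually solvable
    refine ⟨C.K ⊓ H ⊓ A, inf_le_left, ?_, 1, ?_⟩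
    · have h1 : A.relIndex (C.K ⊓ H) ≠ 0 := fun h =>
        hAi (Subgroup.relIndex_eq_zero_of_le_right inf_le_right h)
      rw [Subgroup.inf_relIndex_left]
      exact h1
    · intro x hx
      have h1 : ⁅C.K ⊓ H ⊓ A, C.K ⊓ H ⊓ A⁆ ≤ (homOf hmul).ker.map H.subtype := by
        rw [Subgroup.commutator_le]
        intro g₁ h₁ g₂ h₂
        refine ⟨⁅(⟨g₁, hAH h₁.2⟩ : H), ⟨g₂, hAH h₂.2⟩⁆, ?_, rfl⟩
        exact hA g₁ h₁.2 g₂ h₂.2
      obtain ⟨y, hy, rfl⟩ := h1 hx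
      exact hy

/-- PC2': base case, virtually solvable image; `C.Z` is arbitrary. -/
theorem PC2' [Finite ι] (C : Ctx (FreeGroup ι) I) {s : ℕ} (w : Fin s → FreeGroup ι)
    (hRel : ∀ y, y ∈ C.Rel ↔ ∃ x j, ∃ a : ℤ, y = x * w j ^ a * x⁻¹) (N₀ B : ℕ) (hN₀ : 0 < N₀) :
    ∃ L : IntermediateField ℚ ℂ, FiniteDimensional ℚ L ∧ BaseVS C L N₀ B := by
  classical
  have h : ∀ q : {H : Subgroup (FreeGroup ι) | H.index ≠ 0 ∧ H.index ≤ B} × Fin (B + 1),
      ∃ L : IntermediateField ℚ ℂ, FiniteDimensional ℚ L ∧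
      ∀ L' : IntermediateField ℚ ℂ, L ≤ L' → C.Z ≤ q.1.1 → 0 < (q.2 : ℕ) →
      ∀ σ : FreeGroup ι → SpecialLinearGroup (Fin q.2) ℂ,
        MulOn q.1.1 σ → Adm C N₀ q.1.1 (H2.lin σ) → VS q.1.1 σ → D C L' q.1.1 σ := by
    rintro ⟨⟨H, hH⟩, n⟩
    by_cases h1 : C.Z ≤ H ∧ 0 < (n : ℕ)
    · obtain ⟨L, hL, h2⟩ := PC2_one' C w hRel N₀ hN₀ H hH.1 h1.1 n h1.2
      exact ⟨L, hL, fun L' hL' _ _ => h2 L' hL'⟩
    · exact ⟨⊥, inferInstance, fun L' _ h2 h3 => absurd ⟨h2, h3⟩ h1⟩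
  choose L hL h using h
  have hf : Finite {H : Subgroup (FreeGroup ι) | H.index ≠ 0 ∧ H.index ≤ B} :=
    finite_subgroups ι B
  refine ⟨⨆ q, L q, IntermediateField.finiteDimensional_iSup_of_finite, ?_⟩
  intro H n σ hB hσ hadm hvs
  have hn : 0 < n := by
    rcases Nat.eq_zero_or_pos n with rfl | h0
    · have := hadm.irr.1
      exact absurd this (not_nontrivial _)
    · exact h0
  have hidx : 0 < H.index := Nat.pos_of_ne_zero hadm.fi
  have h1 : H.index ≤ B := le_trans (Nat.le_mul_of_pos_right _ hn) hB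
  have h2 : n ≤ B := le_trans (Nat.le_mul_of_pos_left _ hidx) hB
  exact h (⟨H, hadm.fi, h1⟩, ⟨n, by omega⟩) _ (le_iSup L _) hadm.zle hn σ hσ hadm hvs

end

end Vale.Agent.P002.H377
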