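import Vale.Agent.P002.H2.D6

/-!
# Integral points of subtori, with values in a finitely generated group of units
-/

namespace Vale.Agent.P002.H377

open NumberField Vale.Agent.P002.H306 Vale.Agent.P002.H2

variable {J : Type} [Fintype J]

/-- all the roots of the elements of a finitely generated group of units lie in one field -/
lemma exists_L (n : ℕ) (hn : 0 < n) (U : Subgroup ℂˣ) (hU : U.FG)
    (hUi : ∀ u ∈ U, IsIntegral ℤ (u : ℂ)) (u : ℂˣ) (hu1 : IsIntegral ℤ (u : ℂ))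
    (hu2 : IsIntegral ℤ ((u⁻¹ : ℂˣ) : ℂ)) :
    ∃ L : IntermediateField ℚ ℂ, FiniteDimensional ℚ L ∧ InO L (u : ℂ) ∧
      InO L ((u⁻¹ : ℂˣ) : ℂ) ∧ ∀ z : ℂˣ, z ^ n ∈ U → InO L (z : ℂ) := by
  classical
  obtain ⟨S, hS⟩ := hU
  have hSU : ∀ x ∈ S, x ∈ U := fun x hx => by
    rw [← hS]
    exact Subgroup.subset_closure hx
  have hroot : ∀ x : ℂˣ, ∃ y : ℂˣ, y ^ n = x := by
    intro x
    obtain ⟨y, hy⟩ := IsAlgClosed.exists_pow_nat_eq (x : ℂ) hn
    have hy0 : y ≠ 0 := by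
      rintro rfl
      rw [zero_pow hn.ne'] at hy
      exact x.ne_zero hy.symm
    exact ⟨Units.mk0 y hy0, Units.ext (by rw [Units.val_pow_eq_pow_val, Units.val_mk0, hy])⟩
  choose f hf using hroot
  let T : Set ℂ := ({z : ℂ | z ^ n = 1} ∪ {(u : ℂ), ((u⁻¹ : ℂˣ) : ℂ)}) ∪
    ((fun x : ℂˣ => (f x : ℂ)) '' (S : Set ℂˣ))
  have hintU : ∀ z : ℂˣ, z ^ n ∈ U → IsIntegral ℤ (z : ℂ) := fun z hz =>
    IsIntegral.of_pow hn (by
      have := hUi _ hz
      rwa [Units.val_pow_eq_pow_val] at this)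
  have hfin : T.Finite := by
    refine Set.Finite.union (Set.Finite.union ?_ (Set.toFinite _)) (S.finite_toSet.image _)
    exact (Multiset.finite_toSet (Polynomial.nthRoots n (1 : ℂ))).subset fun z hz =>
      (Polynomial.mem_nthRoots hn).2 hz
  have hint : ∀ z ∈ T, IsIntegral ℤ z := by
    rintro z ((hz | rfl | rfl) | ⟨x, hx, rfl⟩)
    · exact IsIntegral.of_pow hn (by rw [show z ^ n = 1 from hz]; exact isIntegral_one)
    · exact hu1
    · exact hu2
    · refine hintU _ ?_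
      rw [hf]
      exact hSU x hx
  refine ⟨IntermediateField.adjoin ℚ T, exists_nf _ hfin fun z hz => (hint z hz).tower_top,
    InO.of_mem (IntermediateField.subset_adjoin _ _ (Or.inl (Or.inr (Or.inl rfl)))) hu1,
    InO.of_mem (IntermediateField.subset_adjoin _ _ (Or.inl (Or.inr (Or.inr rfl)))) hu2,
    fun z hz => InO.of_mem ?_ (hintU z hz)⟩
  have key : ∀ x ∈ U, ∃ y : ℂˣ, y ^ n = x ∧ (y : ℂ) ∈ IntermediateField.adjoin ℚ T := by
    intro x hx
    rw [← hS] at hx
    refine Subgroup.closure_induction (p := fun x _ => ∃ y : ℂˣ, y ^ n = x ∧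
      (y : ℂ) ∈ IntermediateField.adjoin ℚ T) ?_ ?_ ?_ ?_ hx
    · intro x hx
      exact ⟨f x, hf x, IntermediateField.subset_adjoin _ _ (Or.inr ⟨x, hx, rfl⟩)⟩
    · exact ⟨1, one_pow n, by rw [Units.val_one]; exact one_mem _⟩
    · rintro x y - - ⟨a, rfl, ha⟩ ⟨b, rfl, hb⟩
      exact ⟨a * b, mul_pow a b n, by rw [Units.val_mul]; exact mul_mem ha hb⟩
    · rintro x - ⟨a, rfl, ha⟩
      exact ⟨a⁻¹, inv_pow a n, by rw [Units.val_inv_eq_inv_val]; exact inv_mem ha⟩
  obtain ⟨y, hy, hyL⟩ := key _ hz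
  have h1 : ((z * y⁻¹ : ℂˣ) : ℂ) ^ n = 1 := by
    rw [← Units.val_pow_eq_pow_val, mul_pow, inv_pow, hy, mul_inv_cancel, Units.val_one]
  have h2 : ((z * y⁻¹ : ℂˣ) : ℂ) ∈ IntermediateField.adjoin ℚ T :=
    IntermediateField.subset_adjoin _ _ (Or.inl (Or.inl h1))
  have h3 : (z : ℂ) = ((z * y⁻¹ : ℂˣ) : ℂ) * (y : ℂ) := by
    rw [← Units.val_mul, inv_mul_cancel_right]
  rw [h3]
  exact mul_mem h2 hyL

/-- **The torus lemma** with values in a finitely generated group of algebraic units. -/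
theorem torusU (M : ℕ) (hM : 0 < M) (B : AddSubgroup (J → ℤ)) (U : Subgroup ℂˣ) (hU : U.FG)
    (hUi : ∀ u ∈ U, IsIntegral ℤ (u : ℂ)) :
    ∃ L : IntermediateField ℚ ℂ, FiniteDimensional ℚ L ∧
      ∀ t : J → ℂˣ, (∀ b ∈ B, mono t b ^ M ∈ U) → ∀ Ψ ∈ LauJ J, Ψ t ≠ 0 →
        ∃ t' : J → ℂˣ, (∀ b ∈ B, mono t' b = mono t b) ∧
          (∀ j, InO L (t' j : ℂ) ∧ InO L (((t' j)⁻¹ : ℂˣ) : ℂ)) ∧ Ψ t' ≠ 0 := by
  classical
  obtain ⟨s, e, k, g, hk, hB, he⟩ := struct B
  obtain ⟨u, hu1, hu2, hu3⟩ := exists_unit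
  have hkM : 0 < k * M := Nat.mul_pos hk hM
  obtain ⟨L, hfd, huL, huL', hζL⟩ := exists_L (k * M) hkM U hU hUi u hu1 hu2
  refine ⟨L, hfd, fun t ht Ψ hΨ h0 => ?_⟩
  -- the coordinates
  obtain ⟨E, hE⟩ : ∃ E : J → Fin s → ℤ, E = fun j => e (Pi.single j 1) := ⟨_, rfl⟩
  have heE : ∀ b : J → ℤ, ∀ i, e b i = ∑ j, b j * E j i := by
    intro b i
    have h1 : b = ∑ j, b j • (Pi.single j (1 : ℤ) : J → ℤ) := by
      funext l
      rw [Finset.sum_apply, Finset.sum_eq_single l]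
      · simp
      · intro j _ hj
        simp [hj.symm]
      · intro h
        exact absurd (Finset.mem_univ l) h
    conv_lhs => rw [h1]
    rw [map_sum, Finset.sum_apply]
    refine Finset.sum_congr rfl fun j _ => ?_
    rw [map_zsmul, Pi.smul_apply, hE, smul_eq_mul]
  obtain ⟨y, hy⟩ : ∃ y : Fin s → ℂˣ, y = fun i => mono t (g i) := ⟨_, rfl⟩
  obtain ⟨ζ, hζ⟩ : ∃ ζ : J → ℂˣ, ζ = fun j => t j * (∏ i, y i ^ E j i)⁻¹ := ⟨_, rfl⟩
  obtain ⟨T, hT⟩ : ∃ T : (Fin s → ℂˣ) → J → ℂˣ, T = fun y j => ζ j * ∏ i, y i ^ E j i :=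
    ⟨_, rfl⟩
  have hTy : T y = t := by
    rw [hT, hζ]
    funext j
    simp
  have hmT : ∀ (y : Fin s → ℂˣ) b, mono (T y) b = mono ζ b * ∏ i, y i ^ e b i := by
    intro y b
    rw [hT, mono_mul]
    congr 1
    unfold mono
    simp only [← Finset.prod_zpow]
    rw [Finset.prod_comm]
    refine Finset.prod_congr rfl fun i _ => ?_
    rw [heE, zpow_sum']
    refine Finset.prod_congr rfl fun j _ => ?_
    rw [mul_comm, zpow_mul]
  have hζ1 : ∀ b, mono ζ b ^ (k * M) ∈ U := by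
    intro b
    have h1 : mono ζ b = mono t (b - ∑ i, e b i • g i) := by
      have h2 := hmT y b
      rw [hTy] at h2
      rw [mono_sub, h2, mono_sum]
      simp only [mono_zsmul, hy]
      rw [mul_inv_cancel_right]
    rw [h1, pow_mul, ← mono_nsmul]
    exact ht _ (he b)
  have key : ∀ P ∈ LauJ J, ∀ (y : Fin s → ℂˣ) (i : Fin s),
      (fun c => P (T (Function.update y i c))) ∈ Lau := by
    intro P hP y i
    unfold LauJ at hP
    induction hP using Algebra.adjoin_induction with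
    | mem P hP =>
      have h2 : ∀ j, ∃ a : ℂˣ, ∀ c, T (Function.update y i c) j = a * c ^ E j i := by
        intro j
        refine ⟨ζ j * ∏ l ∈ Finset.univ.erase i, y l ^ E j l, fun c => ?_⟩
        rw [hT]
        change ζ j * ∏ l, _ = _
        rw [← Finset.mul_prod_erase _ _ (Finset.mem_univ i), Function.update_self]
        have h3 : ∏ l ∈ Finset.univ.erase i, Function.update y i c l ^ E j l =
            ∏ l ∈ Finset.univ.erase i, y l ^ E j l := by
          refine Finset.prod_congr rfl fun l hl => ?_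
          rw [Function.update_of_ne (Finset.ne_of_mem_erase hl)]
        rw [h3, mul_assoc, mul_comm (c ^ E j i), ← mul_assoc]
      rcases hP with ⟨j, rfl⟩ | ⟨j, rfl⟩
      · obtain ⟨a, ha⟩ := h2 j
        have h4 : (fun c => ((T (Function.update y i c) j : ℂˣ) : ℂ)) =
            algebraMap ℂ (ℂˣ → ℂ) (a : ℂ) * fun c : ℂˣ => ((c ^ E j i : ℂˣ) : ℂ) := by
          funext c
          rw [ha, Units.val_mul]
          rfl
        rw [h4]
        exact mul_mem (Lau.algebraMap_mem _) (Lau_zpow _)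
      · obtain ⟨a, ha⟩ := h2 j
        have h4 : (fun c => (((T (Function.update y i c) j)⁻¹ : ℂˣ) : ℂ)) =
            algebraMap ℂ (ℂˣ → ℂ) ((a⁻¹ : ℂˣ) : ℂ) * fun c : ℂˣ => ((c ^ (-E j i) : ℂˣ) : ℂ) := by
          funext c
          rw [ha, mul_inv, Units.val_mul, ← zpow_neg]
          rfl
        rw [h4]
        exact mul_mem (Lau.algebraMap_mem _) (Lau_zpow _)
    | algebraMap c => exact Lau.algebraMap_mem c
    | add P Q _ _ hP hQ => exact add_mem hP hQ
    | mul P Q _ _ hP hQ => exact mul_mem hP hQ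
  by_contra hcon
  push Not at hcon
  have h1 : ∀ y : Fin s → ℂˣ, Ψ (T y) = 0 := by
    refine multi_Lau (fun y => Ψ (T y)) ?_ (Set.range fun m : ℤ => u ^ m) ?_ ?_
    · exact fun y i => key Ψ hΨ y i
    · refine Set.infinite_range_of_injective ?_
      intro a b hab
      have h2 : u ^ (a - b) = 1 := by
        have : u ^ a = u ^ b := hab
        rw [zpow_sub, this, mul_inv_cancel]
      by_contra hne
      have h3 : (a - b).natAbs ≠ 0 := fun h => hne (sub_eq_zero.1 (Int.natAbs_eq_zero.1 h))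
      refine hu3 _ (Nat.pos_of_ne_zero h3) ?_
      rcases Int.natAbs_eq (a - b) with h | h
      · rw [h, zpow_natCast] at h2
        exact h2
      · rw [h, zpow_neg, zpow_natCast, inv_eq_one] at h2
        exact h2
    · intro y' hy'
      refine hcon (T y') (fun b hb => ?_) fun j => ?_
      · have h2 := hmT y' b
        have h3 := hmT y b
        rw [hTy] at h3
        rw [h2, h3, hB b hb]
        simp
      · have h2 : ∀ i, InO L (y' i : ℂ) ∧ InO L (((y' i)⁻¹ : ℂˣ) : ℂ) := by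
          intro i
          obtain ⟨m, hm⟩ := hy' i
          have hm' : u ^ m = y' i := hm
          rw [← hm', ← zpow_neg]
          exact ⟨huL.zpow huL' m, huL.zpow huL' (-m)⟩
        have h3 : ∀ j, (ζ j) ^ (k * M) ∈ U := fun j => by
          have := hζ1 (Pi.single j 1)
          rwa [mono_single] at this
        have h4 : InO L (ζ j : ℂ) := hζL _ (h3 j)
        have h5 : InO L (((ζ j)⁻¹ : ℂˣ) : ℂ) := hζL _ (by
          rw [inv_pow]
          exact U.inv_mem (h3 j))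
        constructor
        · rw [hT]
          change InO L (((ζ j * ∏ i, y' i ^ E j i : ℂˣ)) : ℂ)
          rw [Units.val_mul, Units.coe_prod]
          exact h4.mul (InO.prod _ _ fun i _ => (h2 i).1.zpow (h2 i).2 _)
        · rw [hT]
          change InO L ((((ζ j * ∏ i, y' i ^ E j i)⁻¹ : ℂˣ)) : ℂ)
          rw [mul_inv, ← Finset.prod_inv_distrib, Units.val_mul, Units.coe_prod]
          refine h5.mul (InO.prod _ _ fun i _ => ?_)
          rw [← zpow_neg]
          exact (h2 i).1.zpow (h2 i).2 _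
  exact h0 (hTy ▸ h1 y)

end Vale.Agent.P002.H377
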