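import Vale.Agent.P002.H377.Torus
import Vale.Agent.P002.H2.Defs

/-!
# Determinants of the subrepresentations of an integral representation
-/

namespace Vale.Agent.P002.H377

open Matrix NumberField Vale.Agent.P002.H306 Vale.Agent.P002.H2

/-- expansion of the determinant of a product -/
lemma det_mul_expand {n r : ℕ} (S : Matrix (Fin n) (Fin r) ℂ) (E : Matrix (Fin r) (Fin n) ℂ) :
    (S * E).det =
      ∑ f : Fin n → Fin r, (∏ a, S a (f a)) * (Matrix.of fun a b => E (f a) b).det := by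
  classical
  have h1 : (S * E) = fun a => ∑ j, S a j • E j := by
    funext a b
    rw [Matrix.mul_apply, Finset.sum_apply]
    rfl
  have h2 : (S * E).det = (Matrix.detRowAlternating (n := Fin n) (R := ℂ)).toMultilinearMap
      (fun a => ∑ j, S a j • E j) := by
    rw [← h1]
    rfl
  rw [h2, MultilinearMap.map_sum]
  refine Finset.sum_congr rfl fun f _ => ?_
  rw [MultilinearMap.map_smul_univ, smul_eq_mul]
  rfl

/-- characters occurring in a representation defined over a number field -/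
lemma char_field {F : Type} {T : Type} [Fintype T] [DecidableEq T] (L : IntermediateField ℚ ℂ)
    (hL : FiniteDimensional ℚ L) (Z : Set F) (K : F → Matrix T T ℂ)
    (hK : ∀ z ∈ Z, ∀ i j, K z i j ∈ L) :
    ∃ L₁ : IntermediateField ℚ ℂ, FiniteDimensional ℚ L₁ ∧ ∀ (p : T → ℂ) (χ : F → ℂ), p ≠ 0 →
      (∀ z ∈ Z, K z *ᵥ p = χ z • p) → ∀ z ∈ Z, χ z ∈ L₁ := by
  classical
  let K' : Z → Matrix T T L := fun z => Matrix.of fun i j => ⟨K z i j, hK z z.2 i j⟩
  have hK' : ∀ z : Z, (K' z).map (algebraMap L ℂ) = K z := by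
    intro z
    ext i j
    rfl
  obtain ⟨s, hs, hspan⟩ := (Submodule.fg_span_iff_fg_span_finset_subset (R := L)
    (Set.range K')).1 (IsNoetherian.noetherian _)
  let T₁ : Set ℂ := ⋃ B ∈ s, {z : ℂ | ((B.map (algebraMap L ℂ)).charpoly).IsRoot z}
  have hT₁ : T₁.Finite := by
    refine Set.Finite.biUnion s.finite_toSet fun B _ => ?_
    refine (Multiset.finite_toSet ((B.map (algebraMap L ℂ)).charpoly.roots)).subset ?_
    intro z hz
    exact (Polynomial.mem_roots (Matrix.charpoly_monic _).ne_zero).2 hz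
  have hint : ∀ z ∈ T₁, IsIntegral ℚ z := by
    intro z hz
    obtain ⟨B, hB, hz⟩ := Set.mem_iUnion₂.1 hz
    have h1 : IsIntegral L z := by
      refine ⟨B.charpoly, Matrix.charpoly_monic _, ?_⟩
      rw [← Polynomial.eval_map, ← Matrix.charpoly_map]
      exact hz
    exact isIntegral_trans z h1
  have hfd : FiniteDimensional ℚ (IntermediateField.adjoin ℚ T₁) := exists_nf _ hT₁ hint
  refine ⟨L ⊔ IntermediateField.adjoin ℚ T₁, IntermediateField.finiteDimensional_sup _ _,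
    fun p χ hp hχ z hz => ?_⟩
  have key : ∀ B ∈ Submodule.span L (s : Set (Matrix T T L)),
      ∃ c ∈ L ⊔ IntermediateField.adjoin ℚ T₁, (B.map (algebraMap L ℂ)) *ᵥ p = c • p := by
    intro B hB
    refine Submodule.span_induction (p := fun B _ => ∃ c ∈ L ⊔ IntermediateField.adjoin ℚ T₁,
      (B.map (algebraMap L ℂ)) *ᵥ p = c • p) ?_ ?_ ?_ ?_ hB
    · intro B hB
      obtain ⟨y, rfl⟩ := hs hB
      refine ⟨χ y, ?_, ?_⟩
      · refine (le_sup_right : IntermediateField.adjoin ℚ T₁ ≤ _)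
          (IntermediateField.subset_adjoin _ _ (Set.mem_iUnion₂.2 ⟨K' y, hB, ?_⟩))
        show ((K' y).map (algebraMap L ℂ)).charpoly.IsRoot (χ y)
        rw [hK', ← Matrix.charpoly_toLin', ← Module.End.hasEigenvalue_iff_isRoot_charpoly]
        refine Module.End.hasEigenvalue_of_hasEigenvector (x := p) ⟨?_, hp⟩
        rw [Module.End.mem_eigenspace_iff, Matrix.toLin'_apply]
        exact hχ y y.2
      · rw [hK']
        exact hχ y y.2
    · refine ⟨0, zero_mem _, ?_⟩
      rw [Matrix.map_zero _ (map_zero _), Matrix.zero_mulVec, zero_smul]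
    · rintro B B' - - ⟨c, hc, h1⟩ ⟨c', hc', h2⟩
      refine ⟨c + c', add_mem hc hc', ?_⟩
      rw [Matrix.map_add _ (map_add _), Matrix.add_mulVec, h1, h2, add_smul]
    · rintro a B - ⟨c, hc, h1⟩
      refine ⟨(a : ℂ) * c, mul_mem ((le_sup_left : L ≤ _) a.2) hc, ?_⟩
      have h2 : (a • B).map (algebraMap L ℂ) = (a : ℂ) • B.map (algebraMap L ℂ) := by
        ext i j
        simp [Matrix.map_apply]
      rw [h2, Matrix.smul_mulVec, h1, smul_smul]
  have h1 : K' ⟨z, hz⟩ ∈ Submodule.span L (s : Set (Matrix T T L)) := by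
    rw [← hspan]
    exact Submodule.subset_span ⟨_, rfl⟩
  obtain ⟨c, hc, h2⟩ := key _ h1
  rw [hK'] at h2
  have h3 : χ z • p = c • p := by rw [← hχ z hz, ← h2]
  rw [smul_left_injective ℂ hp h3]
  exact hc

/-- the units of the ring of integers of a number field -/
lemma units_fg (L : IntermediateField ℚ ℂ) (hL : FiniteDimensional ℚ L) :
    ∃ U : Subgroup ℂˣ, U.FG ∧ ∀ u : ℂˣ, u ∈ U ↔
      ((u : ℂ) ∈ L ∧ IsIntegral ℤ (u : ℂ) ∧ IsIntegral ℤ ((u⁻¹ : ℂˣ) : ℂ)) := by
  have : NumberField L := { to_charZero := inferInstance, to_finiteDimensional := hL }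
  let f : 𝓞 L →* ℂ := ((algebraMap L ℂ).comp (algebraMap (𝓞 L) L)).toMonoidHom
  refine ⟨(Units.map f).range, ?_, fun u => ⟨?_, ?_⟩⟩
  · have h1 : Group.FG (𝓞 L)ˣ := Group.fg_iff_monoid_fg.2 inferInstance
    have h2 : Group.FG (Units.map f).range := Group.fg_range _
    exact (Group.fg_iff_subgroup_fg _).1 h2
  · rintro ⟨v, rfl⟩
    refine ⟨(v.1 : L).2, ?_, ?_⟩
    · have h3 : IsIntegral ℤ (v.1 : L) := v.1.2
      exact h3.map (L.val.restrictScalars ℤ)
    · rw [← map_inv]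
      have h3 : IsIntegral ℤ (v⁻¹.1 : L) := v⁻¹.1.2
      exact h3.map (L.val.restrictScalars ℤ)
  · rintro ⟨h1, h2, h3⟩
    obtain ⟨a, ha⟩ := InO.of_mem h1 h2
    have h1' : ((u⁻¹ : ℂˣ) : ℂ) ∈ L := by
      rw [Units.val_inv_eq_inv_val]
      exact inv_mem h1
    obtain ⟨b, hb⟩ := InO.of_mem h1' h3
    have hinj : Function.Injective f := by
      intro x y hxy
      exact RingOfIntegers.ext (Subtype.ext hxy)
    have hab : a * b = 1 := by
      apply hinj
      rw [map_mul, map_one]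
      show (a.1.1 : ℂ) * b.1.1 = 1
      rw [← ha, ← hb, ← Units.val_mul, mul_inv_cancel, Units.val_one]
    refine ⟨⟨a, b, hab, by rw [mul_comm, hab]⟩, Units.ext ?_⟩
    exact ha.symm

/-- **Lemma U**: the determinants of the subrepresentations of an integral representation. -/
theorem lemmaU {F : Type} [Group F] (Z : Subgroup F) (r : ℕ)
    (R1 : F → SpecialLinearGroup (Fin r) ℂ) (hm : MulOn Z R1)
    (hint : ∃ L : IntermediateField ℚ ℂ, FiniteDimensional ℚ L ∧
      ∀ z ∈ Z, ∀ i j, InO L ((R1 z).1 i j)) :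
    ∃ U : Subgroup ℂˣ, U.FG ∧ (∀ u ∈ U, IsIntegral ℤ (u : ℂ)) ∧
      ∀ (n : ℕ) (e : (Fin n → ℂ) →ₗ[ℂ] (Fin r → ℂ)) (A : F → Matrix (Fin n) (Fin n) ℂ),
        Function.Injective e → (∀ z ∈ Z, ∀ v, (R1 z).1 *ᵥ e v = e (A z *ᵥ v)) →
        ∀ z ∈ Z, ∃ u ∈ U, (u : ℂ) = (A z).det := by
  classical
  obtain ⟨L, hL, hint⟩ := hint
  let K : (n : ℕ) → F → Matrix (Fin n → Fin r) (Fin n → Fin r) ℂ := fun n z =>
    Matrix.of fun f g => ∏ a, (R1 z).1 (f a) (g a)
  have hKint : ∀ n, ∀ z ∈ Z, ∀ f g, InO L (K n z f g) := by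
    intro n z hz f g
    exact InO.prod Finset.univ (fun a => (R1 z).1 (f a) (g a)) fun a _ => hint z hz _ _
  have hmem : ∀ {c : ℂ}, InO L c → c ∈ L ∧ IsIntegral ℤ c := by
    rintro c ⟨a, rfl⟩
    refine ⟨a.1.2, ?_⟩
    have h3 : IsIntegral ℤ a.1 := a.2
    exact h3.map (L.val.restrictScalars ℤ)
  choose L₁ hL₁ hch using fun n : Fin (r + 1) => char_field L hL (Z : Set F) (K n)
    (fun z hz f g => (hmem (hKint n z hz f g)).1)
  obtain ⟨U, hU, hUi⟩ := units_fg (⨆ n, L₁ n) IntermediateField.finiteDimensional_iSup_of_finite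
  refine ⟨U, hU, fun u hu => ((hUi u).1 hu).2.1, fun n e A he hA => ?_⟩
  -- the matrix of `e`
  obtain ⟨E, hE⟩ : ∃ E : Matrix (Fin r) (Fin n) ℂ, E = LinearMap.toMatrix' e := ⟨_, rfl⟩
  have hEe : ∀ v, E *ᵥ v = e v := fun v => by
    rw [hE, ← Matrix.toLin'_apply, Matrix.toLin'_toMatrix']
  have hRE : ∀ z ∈ Z, (R1 z).1 * E = E * A z := by
    intro z hz
    apply Matrix.toLin'.injective
    refine LinearMap.ext fun v => ?_
    rw [Matrix.toLin'_apply, Matrix.toLin'_apply, ← Matrix.mulVec_mulVec, ← Matrix.mulVec_mulVec,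
      hEe, hEe, hA z hz]
  obtain ⟨g, hg⟩ := LinearMap.exists_leftInverse_of_injective e (LinearMap.ker_eq_bot.2 he)
  obtain ⟨G, hG⟩ : ∃ G : Matrix (Fin n) (Fin r) ℂ, G = LinearMap.toMatrix' g := ⟨_, rfl⟩
  have hGE : G * E = 1 := by
    rw [hG, hE, ← LinearMap.toMatrix'_comp, hg, LinearMap.toMatrix'_id]
  have hnr : n ≤ r := by
    have := LinearMap.finrank_le_finrank_of_injective he
    simpa using this
  -- the Pluecker vector
  let p : (Fin n → Fin r) → ℂ := fun f => (Matrix.of fun a b => E (f a) b).det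
  have hp : p ≠ 0 := by
    intro hp
    have h1 := det_mul_expand G E
    rw [hGE, det_one] at h1
    refine one_ne_zero (h1.trans (Finset.sum_eq_zero fun f _ => ?_))
    have h2 : p f = 0 := congrFun hp f
    show _ * p f = 0
    rw [h2, mul_zero]
  have hKp : ∀ z ∈ Z, K n z *ᵥ p = (A z).det • p := by
    intro z hz
    funext f
    have h1 := det_mul_expand (Matrix.of fun a j => (R1 z).1 (f a) j) E
    have h2 : (Matrix.of fun a j => (R1 z).1 (f a) j) * E =
        (Matrix.of fun a b => E (f a) b) * A z := by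
      ext a b
      have h3 := congrFun (congrFun (hRE z hz) (f a)) b
      rw [Matrix.mul_apply] at h3 ⊢
      rw [Matrix.mul_apply] at h3 ⊢
      exact h3
    rw [h2, det_mul] at h1
    rw [Pi.smul_apply, smul_eq_mul, mul_comm]
    exact h1.symm
  have hinv : ∀ z ∈ Z, A z * A z⁻¹ = 1 := by
    intro z hz
    have h1 : (R1 z).1 * (R1 z⁻¹).1 = 1 := by
      have h2 := hm.mul z hz z⁻¹ (Z.inv_mem hz)
      rw [mul_inv_cancel, hm.one] at h2
      exact (congrArg Subtype.val h2).symm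
    calc A z * A z⁻¹ = (G * E) * (A z * A z⁻¹) := by rw [hGE, Matrix.one_mul]
      _ = G * ((E * A z) * A z⁻¹) := by simp only [Matrix.mul_assoc]
      _ = G * ((R1 z).1 * (E * A z⁻¹)) := by rw [← hRE z hz, Matrix.mul_assoc]
      _ = G * (((R1 z).1 * (R1 z⁻¹).1) * E) := by
        rw [← hRE z⁻¹ (Z.inv_mem hz), Matrix.mul_assoc]
      _ = 1 := by rw [h1, Matrix.one_mul, hGE]
  have hdint : ∀ z ∈ Z, IsIntegral ℤ (A z).det := by
    intro z hz
    have h1 : ∀ f g, K n z f g ∈ integralClosure ℤ ℂ := fun f g => (hmem (hKint n z hz f g)).2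
    let B : Matrix (Fin n → Fin r) (Fin n → Fin r) (integralClosure ℤ ℂ) :=
      Matrix.of fun f g => ⟨K n z f g, h1 f g⟩
    have h2 : B.map (algebraMap (integralClosure ℤ ℂ) ℂ) = K n z := by
      ext f g
      rfl
    have h3 : IsIntegral (integralClosure ℤ ℂ) (A z).det := by
      refine ⟨B.charpoly, Matrix.charpoly_monic _, ?_⟩
      rw [← Polynomial.eval_map, ← Matrix.charpoly_map, h2, ← Polynomial.IsRoot.def,
        ← Matrix.charpoly_toLin', ← Module.End.hasEigenvalue_iff_isRoot_charpoly]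
      refine Module.End.hasEigenvalue_of_hasEigenvector (x := p) ⟨?_, hp⟩
      rw [Module.End.mem_eigenspace_iff, Matrix.toLin'_apply]
      exact hKp z hz
    exact isIntegral_trans _ h3
  intro z hz
  have hz' := Z.inv_mem hz
  have h1 : (A z).det * (A z⁻¹).det = 1 := by rw [← det_mul, hinv z hz, det_one]
  refine ⟨⟨(A z).det, (A z⁻¹).det, h1, by rw [mul_comm, h1]⟩, (hUi _).2 ⟨?_, hdint z hz,
    hdint _ hz'⟩, rfl⟩
  exact (le_iSup L₁ ⟨n, by omega⟩) (hch ⟨n, by omega⟩ p (fun z => (A z).det) hp hKp z hz)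

end Vale.Agent.P002.H377
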