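import Vale.Agent.P002.H377.Tw

/-!
# Tensor induction preserves the property `D`
-/

namespace Vale.Agent.P002.H377

open Matrix NumberField Vale.Agent.P002.H2 Kronecker commutatorElement

section general

variable {F : Type} [Group F]

/-- being in `𝓞 L` -/
noncomputable def OL (L : IntermediateField ℚ ℂ) : Subring ℂ :=
  ((algebraMap L ℂ).comp (algebraMap (𝓞 L) L)).range

lemma mem_OL {L : IntermediateField ℚ ℂ} {z : ℂ} : z ∈ OL L ↔ ∃ a : 𝓞 L, z = a.1.1 := by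
  constructor
  · rintro ⟨a, rfl⟩
    exact ⟨a, rfl⟩
  · rintro ⟨a, rfl⟩
    exact ⟨a, rfl⟩

lemma mem_OL_of_pow {L : IntermediateField ℚ ℂ} {z : ℂ} (hz : z ∈ L) {k : ℕ} (hk : 0 < k)
    (h : z ^ k = 1) : z ∈ OL L := by
  rw [mem_OL]
  have hi : IsIntegral ℤ (⟨z, hz⟩ : L) := by
    have : IsIntegral ℤ ((⟨z, hz⟩ : L) ^ k) := by
      have h1 : (⟨z, hz⟩ : L) ^ k = 1 := Subtype.ext h
      rw [h1]
      exact isIntegral_one
    exact IsIntegral.of_pow hk this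
  exact ⟨⟨⟨z, hz⟩, hi⟩, rfl⟩

/-- `P ∈ PF H n` depends only on the values on `H`. -/
lemma PF_congr {n : Type} [Fintype n] [DecidableEq n] {H : Subgroup F}
    {P : (F → SpecialLinearGroup n ℂ) → ℂ} (hP : P ∈ PF H n)
    {σ σ' : F → SpecialLinearGroup n ℂ} (h : ∀ x ∈ H, σ x = σ' x) : P σ = P σ' := by
  refine Algebra.adjoin_induction ?_ ?_ ?_ ?_ hP
  · rintro Q ⟨x, hx, i, j, rfl⟩
    simp only [h x hx]
  · intro r
    rfl
  · intro P Q _ _ hp hq
    simp only [Pi.add_apply, hp, hq]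
  · intro P Q _ _ hp hq
    simp only [Pi.mul_apply, hp, hq]

lemma entry_mem_PF {n : Type} [Fintype n] [DecidableEq n] {H : Subgroup F} {x : F} (hx : x ∈ H)
    (i j : n) : (fun σ : F → SpecialLinearGroup n ℂ => (σ x).1 i j) ∈ PF H n :=
  Algebra.subset_adjoin ⟨x, hx, i, j, rfl⟩

/-- Composition with a map given by polynomial functions. -/
lemma PF_comp {n m : Type} [Fintype n] [DecidableEq n] [Fintype m] [DecidableEq m]
    {H H' : Subgroup F} (Φ : (F → SpecialLinearGroup n ℂ) → F → SpecialLinearGroup m ℂ)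
    (hΦ : ∀ x ∈ H, ∀ i j, (fun σ => (Φ σ x).1 i j) ∈ PF H' n)
    {P : (F → SpecialLinearGroup m ℂ) → ℂ} (hP : P ∈ PF H m) : (fun σ => P (Φ σ)) ∈ PF H' n := by
  refine Algebra.adjoin_induction (p := fun P _ => (fun σ => P (Φ σ)) ∈ PF H' n) ?_ ?_ ?_ ?_ hP
  · rintro Q ⟨x, hx, i, j, rfl⟩
    exact hΦ x hx i j
  · intro r
    exact (PF H' n).algebraMap_mem r
  · intro P Q _ _ hp hq
    exact (PF H' n).add_mem hp hq
  · intro P Q _ _ hp hq
    exact (PF H' n).mul_mem hp hq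

/-- The relative index for a transversal. -/
lemma Trans.relIndex_ne_zero {Ω : Type} [Finite Ω] {H H' : Subgroup F} {t : Ω → F}
    (ht : Trans H H' t) : H'.relIndex H ≠ 0 := by
  have hne : Nonempty (H ⧸ H'.subgroupOf H) := ⟨QuotientGroup.mk 1⟩
  have : Finite (H ⧸ H'.subgroupOf H) := by
    refine Finite.of_surjective (fun c : Ω => (QuotientGroup.mk (⟨t c, ht.mem c⟩ : H) :
      H ⧸ H'.subgroupOf H)) ?_
    intro q
    obtain ⟨⟨x, hx⟩, rfl⟩ := QuotientGroup.mk_surjective q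
    obtain ⟨c, hc, -⟩ := ht.uniq x hx
    refine ⟨c, ?_⟩
    rw [QuotientGroup.eq, Subgroup.mem_subgroupOf]
    exact hc
  exact Nat.card_pos.ne'

lemma dser_le (B : Subgroup F) (k : ℕ) : dser B k ≤ B := by
  induction k with
  | zero => exact le_rfl
  | succ k ih =>
    show ⁅dser B k, dser B k⁆ ≤ B
    rw [Subgroup.commutator_le]
    intro g₁ h₁ g₂ h₂
    exact B.mul_mem (B.mul_mem (B.mul_mem (ih h₁) (ih h₂)) (B.inv_mem (ih h₁)))
      (B.inv_mem (ih h₂))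

lemma dser_map (f : F →* F) {B B₀ : Subgroup F} (h : B.map f ≤ B₀) (k : ℕ) :
    (dser B k).map f ≤ dser B₀ k := by
  induction k with
  | zero => exact h
  | succ k ih =>
    show (⁅dser B k, dser B k⁆).map f ≤ ⁅dser B₀ k, dser B₀ k⁆
    rw [Subgroup.map_commutator]
    exact Subgroup.commutator_mono ih ih

/-- `K` is normal -/
lemma Ctx.K_normal {I : Type} [MulAction F I] (C : Ctx F I) (x y : F) (hy : y ∈ C.K) :
    x * y * x⁻¹ ∈ C.K := by
  unfold Ctx.K at *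
  rw [Subgroup.mem_iInf] at *
  intro i
  have := C.hN x (x⁻¹ • i) y (hy _)
  rwa [smul_inv_smul] at this

/-- conjugates of a subgroup -/
def cj (g : F) (B : Subgroup F) : Subgroup F := B.map (MulAut.conj g).toMonoidHom

lemma mem_cj {g x : F} {B : Subgroup F} : x ∈ cj g B ↔ g⁻¹ * x * g ∈ B := by
  constructor
  · rintro ⟨y, hy, rfl⟩
    simp only [MulEquiv.coe_toMonoidHom, MulAut.conj_apply]
    have : g⁻¹ * (g * y * g⁻¹) * g = y := by group
    rw [this]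
    exact hy
  · intro h
    refine ⟨g⁻¹ * x * g, h, ?_⟩
    simp only [MulEquiv.coe_toMonoidHom, MulAut.conj_apply]
    group

lemma cj_relIndex (g : F) (A B : Subgroup F) : (cj g A).relIndex (cj g B) = A.relIndex B :=
  Subgroup.relIndex_map_map_of_injective _ _ (MulAut.conj g).injective

end general

variable {F : Type} [Group F] {I : Type} [MulAction F I]

lemma VS_tiM_aux {C : Ctx F I} {Ω : Type} [Finite Ω] [Nonempty Ω] {H H' : Subgroup F}
    (hle : H' ≤ H) {t : Ω → F} (ht : Trans H H' t) {M : Type*} [Monoid M] {σ : F → M}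
    (h : VS (C.K ⊓ H') σ) :
    ∃ B ≤ C.K ⊓ H, B.relIndex (C.K ⊓ H) ≠ 0 ∧ ∃ k, ∀ x ∈ dser B k, ∀ c : Ω,
      (t c)⁻¹ * x * t c ∈ H' ∧ σ ((t c)⁻¹ * x * t c) = 1 := by
  obtain ⟨B₀, hB₀, hfi, k, hk⟩ := h
  have hcjK : ∀ c, cj (t c) (C.K ⊓ H') ≤ C.K ⊓ H := by
    intro c x hx
    rw [mem_cj] at hx
    have e : x = t c * ((t c)⁻¹ * x * t c) * (t c)⁻¹ := by group
    rw [e]
    exact ⟨Ctx.K_normal C _ _ hx.1,
      H.mul_mem (H.mul_mem (ht.mem c) (hle hx.2)) (H.inv_mem (ht.mem c))⟩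
  have hcj : ∀ c, cj (t c) B₀ ≤ C.K ⊓ H := by
    intro c
    refine le_trans ?_ (hcjK c)
    intro x hx
    rw [mem_cj] at hx ⊢
    exact hB₀ hx
  refine ⟨⨅ c, cj (t c) B₀, (iInf_le _ (Classical.arbitrary Ω)).trans (hcj _), ?_, k, ?_⟩
  · refine Subgroup.relIndex_iInf_ne_zero fun c => ?_
    have h1 : (cj (t c) B₀).relIndex (cj (t c) (C.K ⊓ H')) ≠ 0 := by rwa [cj_relIndex]
    refine Subgroup.relIndex_ne_zero_trans h1 ?_
    have h2 : cj (t c) (C.K ⊓ H) = C.K ⊓ H := by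
      ext x
      rw [mem_cj]
      constructor
      · intro hx
        have e : x = t c * ((t c)⁻¹ * x * t c) * (t c)⁻¹ := by group
        rw [e]
        exact ⟨Ctx.K_normal C _ _ hx.1,
          H.mul_mem (H.mul_mem (ht.mem c) hx.2) (H.inv_mem (ht.mem c))⟩
      · intro hx
        have := Ctx.K_normal C (t c)⁻¹ x hx.1
        rw [inv_inv] at this
        exact ⟨this, H.mul_mem (H.mul_mem (H.inv_mem (ht.mem c)) hx.2) (ht.mem c)⟩
    rw [← h2, cj_relIndex]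
    have h3 : (C.K ⊓ H').relIndex (C.K ⊓ H) ≠ 0 := by
      apply Subgroup.relIndex_inf_ne_zero
      · rw [Subgroup.relIndex_eq_one.2 inf_le_left]
        exact one_ne_zero
      · have := ht.relIndex_ne_zero
        exact fun h => this (Subgroup.relIndex_eq_zero_of_le_right inf_le_right h)
    exact h3
  · intro x hx c
    have h1 : (⨅ c, cj (t c) B₀).map (MulAut.conj (t c)⁻¹).toMonoidHom ≤ B₀ := by
      rintro y ⟨z, hz, rfl⟩
      have := (mem_cj.1 ((iInf_le _ c : (⨅ c, cj (t c) B₀) ≤ _) hz))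
      simpa using this
    have h2 := dser_map _ h1 k (Subgroup.mem_map_of_mem _ hx)
    have h3 : (MulAut.conj (t c)⁻¹).toMonoidHom x = (t c)⁻¹ * x * t c := by simp
    rw [h3] at h2
    exact ⟨(hB₀ (dser_le _ _ h2)).2, hk _ h2⟩

/-- PC5f (T++): tensor induction preserves `D`. -/
theorem PC5f {C : Ctx F I} {L : IntermediateField ℚ ℂ} {Ω n : Type} [Fintype Ω] [DecidableEq Ω]
    [Nonempty Ω] [Fintype n] [DecidableEq n]
    {H H' : Subgroup F} (hle : H' ≤ H) (hZ : C.Z ≤ H') {t : Ω → F} (ht : Trans H H' t)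
    (σ : F → SpecialLinearGroup n ℂ) (hσ : MulOn H' σ)
    (_hZσ : Scal C.Z (lin σ)) (hD : D C L H' σ)
    (hμ : ∀ z : ℂ, z ^ (2 * Fintype.card n ^ Fintype.card Ω) = 1 → z ∈ L)
    (τ : F → SpecialLinearGroup (Ω → n) ℂ)
    (hτ : ∀ x ∈ H, ∃ u : ℂˣ, (τ x).1 = (u : ℂ) • tiM H' t (fun y => (σ y).1) x) (hτm : MulOn H τ) :
    D C L H τ := by
  classical
  intro P hP hPτ
  rcases isEmpty_or_nonempty (Ω → n) with hemp | hne
  · refine ⟨τ, ⟨hτm, ⟨1, fun x _ i => hemp.elim i⟩, fun _ _ => rfl, fun _ _ _ => IsConj.refl _,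
      ⟨C.K ⊓ H, le_rfl, ?_, 0, fun x _ => Subsingleton.elim _ _⟩⟩, hPτ⟩
    rw [Subgroup.relIndex_self]
    exact one_ne_zero
  -- the character `u`
  choose! u hu using hτ
  have hN : 0 < Fintype.card (Ω → n) := Fintype.card_pos
  have hdet : ∀ x (hx : x ∈ H), ∀ σ' : F → SpecialLinearGroup n ℂ,
      ((u x : ℂ) • tiM H' t (fun y => (σ' y).1) x).det = 1 := by
    intro x hx σ'
    rw [det_smul, tiM_eq ht hx, det_tw]
    have := (τ x).2
    rw [hu x hx, det_smul, tiM_eq ht hx, det_tw] at this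
    exact this
  have hu1 : ∀ x ∈ H, (u x : ℂ) ^ (2 * Fintype.card (Ω → n)) = 1 := by
    intro x hx
    have h1 := hdet x hx σ
    rw [det_smul, tiM_eq ht hx, det_tw] at h1
    have h2 := det_tw_one_sq (R := ℂ) (n := n) (permT ht x hx)
    calc (u x : ℂ) ^ (2 * Fintype.card (Ω → n)) =
        ((u x : ℂ) ^ Fintype.card (Ω → n)) ^ 2 := by rw [← pow_mul, mul_comm]
      _ = ((u x : ℂ) ^ Fintype.card (Ω → n)) ^ 2 *
          (tw (permT ht x hx) (fun _ => (1 : Matrix n n ℂ))).det ^ 2 := by rw [h2, mul_one]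
      _ = 1 := by rw [← mul_pow, h1, one_pow]
  have huOL : ∀ x ∈ H, (u x : ℂ) ∈ OL L := by
    intro x hx
    refine mem_OL_of_pow (hμ _ ?_) (Nat.mul_pos two_pos hN) (hu1 x hx)
    rw [← Fintype.card_fun]
    exact hu1 x hx
  have hMσ : ∀ σ' : F → SpecialLinearGroup n ℂ, MulOn H' σ' → MulOn H' fun y => (σ' y).1 := by
    intro σ' h
    exact ⟨by simp only [h.one]; rfl, fun x hx y hy => by simp only [h.mul x hx y hy]; rfl⟩
  have humul : ∀ x ∈ H, ∀ y ∈ H, u (x * y) = u x * u y := by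
    intro x hx y hy
    have h1 : (τ (x * y)).1 = (τ x).1 * (τ y).1 := by rw [hτm.mul x hx y hy]; rfl
    rw [hu _ (H.mul_mem hx hy), hu x hx, hu y hy, smul_mul_smul_comm,
      ← tiM_mul ht _ (hMσ σ hσ) hx hy] at h1
    have hne0 : tiM H' t (fun y => (σ y).1) (x * y) ≠ 0 := by
      intro h0
      have := hdet _ (H.mul_mem hx hy) σ
      rw [h0, smul_zero, det_zero] at this
      exact zero_ne_one this
    have := smul_left_injective ℂ hne0 h1
    exact Units.ext this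
  have hu11 : u 1 = 1 := by
    have := humul 1 H.one_mem 1 H.one_mem
    rw [mul_one] at this
    exact (mul_eq_left.1 this.symm)
  -- the map `Φ`
  obtain ⟨Φ, hΦ⟩ : ∃ Φ : (F → SpecialLinearGroup n ℂ) → F → SpecialLinearGroup (Ω → n) ℂ,
      ∀ σ', ∀ x ∈ H, (Φ σ' x).1 = (u x : ℂ) • tiM H' t (fun y => (σ' y).1) x := by
    refine ⟨fun σ' x => ⟨if x ∈ H then (u x : ℂ) • tiM H' t (fun y => (σ' y).1) x else 1, ?_⟩, ?_⟩
    · split_ifs with hx
      · exact hdet x hx σ'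
      · exact det_one
    · intro σ' x hx
      exact if_pos hx
  have hΦτ : ∀ x ∈ H, τ x = Φ σ x := fun x hx => Subtype.ext (by rw [hu x hx, hΦ σ x hx])
  have hPF : (fun σ' => P (Φ σ')) ∈ PF H' n := by
    refine PF_comp Φ (fun x hx i j => ?_) hP
    have e : (fun σ' => (Φ σ' x).1 i j) = fun σ' : F → SpecialLinearGroup n ℂ => (u x : ℂ) *
        ∏ c : Ω, (σ' ((t (permT ht x hx c))⁻¹ * x * t c)).1 (i (permT ht x hx c)) (j c) := by
      ext σ'
      rw [hΦ σ' x hx, tiM_eq ht hx]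
      rfl
    rw [e]
    have e2 : (fun σ' : F → SpecialLinearGroup n ℂ => (u x : ℂ) *
        ∏ c : Ω, (σ' ((t (permT ht x hx c))⁻¹ * x * t c)).1 (i (permT ht x hx c)) (j c)) =
        (u x : ℂ) • ∏ c : Ω, fun σ' : F → SpecialLinearGroup n ℂ =>
          (σ' ((t (permT ht x hx c))⁻¹ * x * t c)).1 (i (permT ht x hx c)) (j c) := by
      ext σ'
      simp
    rw [e2]
    exact (PF H' n).smul_mem ((PF H' n).prod_mem fun c _ => entry_mem_PF (permT_spec ht x hx c) _ _)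
      _
  obtain ⟨σ', hσ', hPσ'⟩ := hD _ hPF (by
    show P (Φ σ) ≠ 0
    rwa [← PF_congr hP hΦτ])
  refine ⟨Φ σ', ⟨?_, ?_, ?_, ?_, ?_⟩, hPσ'⟩
  · -- multiplicative
    refine ⟨Subtype.ext ?_, fun x hx y hy => Subtype.ext ?_⟩
    · rw [hΦ σ' 1 H.one_mem, hu11, tiM_one ht _ (hMσ σ' hσ'.mul)]
      simp
    · show _ = (Φ σ' x).1 * (Φ σ' y).1
      rw [hΦ σ' _ (H.mul_mem hx hy), hΦ σ' x hx, hΦ σ' y hy, smul_mul_smul_comm, humul x hx y hy,
        tiM_mul ht _ (hMσ σ' hσ'.mul) hx hy, Units.val_mul]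
  · -- integral
    obtain ⟨Q, hQ⟩ := hσ'.int
    have hA : ∀ (A B : Matrix n n ℂ), tw (1 : Equiv.Perm Ω) (fun _ => A) *
        tw (1 : Equiv.Perm Ω) (fun _ => B) = tw (1 : Equiv.Perm Ω) (fun _ => A * B) := by
      intro A B
      rw [tw_mul, mul_one]
    refine ⟨⟨tw (1 : Equiv.Perm Ω) (fun _ => Q.1), tw (1 : Equiv.Perm Ω) (fun _ => (Q⁻¹).1), ?_, ?_⟩,
      fun x hx i j => ?_⟩
    · rw [hA, ← tw_one]
      simp
    · rw [hA, ← tw_one]
      simp
    · rw [← mem_OL]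
      show (tw (1 : Equiv.Perm Ω) (fun _ => Q.1) * (Φ σ' x).1 *
        tw (1 : Equiv.Perm Ω) (fun _ => (Q⁻¹).1)) i j ∈ OL L
      rw [hΦ σ' x hx, tiM_eq ht hx, Matrix.mul_smul, Matrix.smul_mul, tw_mul, tw_mul, Matrix.smul_apply,
        smul_eq_mul, tw_apply]
      refine (OL L).mul_mem (huOL x hx) ((OL L).prod_mem fun c _ => ?_)
      rw [mem_OL]
      exact hQ _ (permT_spec ht x hx c) _ _
  · -- on `Z`
    intro x hx
    have hxH' : ∀ c, (t c)⁻¹ * x * t c ∈ C.Z := by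
      intro c
      have := C.hZ (t c)⁻¹ x hx
      rwa [inv_inv] at this
    have hxH : x ∈ H := hle (hZ hx)
    rw [hΦτ x hxH]
    apply Subtype.ext
    rw [hΦ σ' x hxH, hΦ σ x hxH, tiM_eq ht hxH, tiM_eq ht hxH]
    have hp := permT_eq_one ht hxH fun c => hZ (hxH' c)
    rw [hp]
    congr 2
    ext1 c
    rw [Equiv.Perm.one_apply, hσ'.z _ (hxH' c)]
  · -- conjugacy classes
    intro y hy hyH
    have hc : ∀ (c : Ω) (k : ℤ), (t c)⁻¹ * y ^ k * t c ∈ H' →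
        IsConj (σ ((t c)⁻¹ * y ^ k * t c)) (σ' ((t c)⁻¹ * y ^ k * t c)) := by
      intro c k hk
      refine hσ'.rel _ ?_ hk
      have := C.hconj (t c)⁻¹ _ (C.hpow y hy k)
      rwa [inv_inv] at this
    obtain ⟨p, hp⟩ := PC5b' σ σ' hσ hσ'.mul y hc
    rw [hΦτ y hyH, isConj_iff]
    -- the conjugating matrix
    let Q : SpecialLinearGroup (Ω → n) ℂ := ⟨tw (1 : Equiv.Perm Ω) (fun c => (p c).1), det_tw_SL p⟩
    refine ⟨Q, ?_⟩
    rw [mul_inv_eq_iff_eq_mul]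
    apply Subtype.ext
    show Q.1 * (Φ σ y).1 = (Φ σ' y).1 * Q.1
    rw [hΦ σ y hyH, hΦ σ' y hyH, tiM_eq ht hyH, tiM_eq ht hyH, Matrix.mul_smul, Matrix.smul_mul]
    congr 1
    show tw (1 : Equiv.Perm Ω) (fun c => (p c).1) * _ = _ * tw (1 : Equiv.Perm Ω) fun c => (p c).1
    rw [tw_mul, tw_mul, one_mul, mul_one]
    congr 1
    ext1 c
    exact congrArg Subtype.val (hp c _ (permT_spec ht y hyH c))
  · -- virtually solvable
    obtain ⟨B, hB, hBfi, k, hk⟩ := VS_tiM_aux hle ht hσ'.vs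
    refine ⟨B, hB, hBfi, k + 1, fun x hx => ?_⟩
    have hscal : ∀ x ∈ dser B k, x ∈ H ∧ (Φ σ' x).1 = (u x : ℂ) • 1 := by
      intro x hx
      have hxH : x ∈ H := (hB (dser_le _ _ hx)).2
      refine ⟨hxH, ?_⟩
      rw [hΦ σ' x hxH, tiM_eq ht hxH, permT_eq_one ht hxH fun c => (hk x hx c).1, ← tw_one]
      congr 2
      ext1 c
      rw [Equiv.Perm.one_apply, (hk x hx c).2]
      rfl
    have hmul : MulOn H (Φ σ') := by
      refine ⟨Subtype.ext ?_, fun x hx y hy => Subtype.ext ?_⟩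
      · rw [hΦ σ' 1 H.one_mem, hu11, tiM_one ht _ (hMσ σ' hσ'.mul)]
        simp
      · show _ = (Φ σ' x).1 * (Φ σ' y).1
        rw [hΦ σ' _ (H.mul_mem hx hy), hΦ σ' x hx, hΦ σ' y hy, smul_mul_smul_comm,
          humul x hx y hy, tiM_mul ht _ (hMσ σ' hσ'.mul) hx hy, Units.val_mul]
    have hle' : ⁅dser B k, dser B k⁆ ≤ (homOf hmul).ker.map H.subtype := by
      rw [Subgroup.commutator_le]
      intro g₁ h₁ g₂ h₂
      obtain ⟨a₁, b₁⟩ := hscal g₁ h₁
      obtain ⟨a₂, b₂⟩ := hscal g₂ h₂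
      refine ⟨⁅(⟨g₁, a₁⟩ : H), ⟨g₂, a₂⟩⁆, ?_, rfl⟩
      show homOf hmul _ = 1
      rw [map_commutatorElement, commutatorElement_eq_one_iff_mul_comm]
      apply Subtype.ext
      show (Φ σ' g₁).1 * (Φ σ' g₂).1 = (Φ σ' g₂).1 * (Φ σ' g₁).1
      rw [b₁, b₂, smul_mul_smul_comm, smul_mul_smul_comm, mul_comm (u g₁ : ℂ)]
    obtain ⟨y, hy, rfl⟩ := hle' hx
    exact hy

end Vale.Agent.P002.H377
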