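import Vale.Agent.P002.H377.Ind

/-!
# Twisted tensor powers of matrices
-/

namespace Vale.Agent.P002.H377

open Matrix Vale.Agent.P002.H2 Kronecker

variable {Ω n : Type} [Fintype Ω] [DecidableEq Ω] [Fintype n] [DecidableEq n]

/-- `⊗ A c` composed with the permutation `π` of the tensor factors. -/
def tw {R : Type*} [CommRing R] (π : Equiv.Perm Ω) (A : Ω → Matrix n n R) :
    Matrix (Ω → n) (Ω → n) R :=
  Matrix.of fun p q => ∏ c, A c (p (π c)) (q c)

omit [DecidableEq Ω] [Fintype n] [DecidableEq n] in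
@[simp] lemma tw_apply {R : Type*} [CommRing R] (π : Equiv.Perm Ω) (A : Ω → Matrix n n R)
    (p q : Ω → n) : tw π A p q = ∏ c, A c (p (π c)) (q c) := rfl

omit [DecidableEq n] in
lemma tw_mul {R : Type*} [CommRing R] (π ρ : Equiv.Perm Ω) (A B : Ω → Matrix n n R) :
    tw π A * tw ρ B = tw (π * ρ) fun c => A (ρ c) * B c := by
  ext p q
  rw [Matrix.mul_apply, tw_apply]
  simp only [Matrix.mul_apply, tw_apply]
  rw [Finset.prod_univ_sum]
  rw [Fintype.piFinset_univ]
  rw [← Equiv.sum_comp (Equiv.arrowCongr ρ (Equiv.refl n))]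
  refine Finset.sum_congr rfl fun r _ => ?_
  rw [← Equiv.prod_comp ρ, ← Finset.prod_mul_distrib]
  refine Finset.prod_congr rfl fun c _ => ?_
  simp [Equiv.arrowCongr]

omit [DecidableEq Ω] [Fintype n] in
lemma tw_one {R : Type*} [CommRing R] :
    tw (1 : Equiv.Perm Ω) (fun _ => (1 : Matrix n n R)) = 1 := by
  ext p q
  rw [tw_apply, Matrix.one_apply]
  by_cases h : p = q
  · subst h
    rw [if_pos rfl]
    refine Finset.prod_eq_one fun c _ => ?_
    rw [Equiv.Perm.one_apply, Matrix.one_apply_eq]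
  · rw [if_neg h]
    obtain ⟨c, hc⟩ := Function.ne_iff.1 h
    refine Finset.prod_eq_zero (Finset.mem_univ c) ?_
    rw [Equiv.Perm.one_apply, Matrix.one_apply, if_neg hc]

omit [DecidableEq Ω] [Fintype n] in
lemma tw_transpose {R : Type*} [CommRing R] (π : Equiv.Perm Ω) :
    (tw π (fun _ => (1 : Matrix n n R)))ᵀ = tw π⁻¹ (fun _ => (1 : Matrix n n R)) := by
  ext p q
  rw [Matrix.transpose_apply, tw_apply, tw_apply, ← Equiv.prod_comp π⁻¹]
  refine Finset.prod_congr rfl fun c _ => ?_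
  have h1 : π (π⁻¹ c) = c := π.apply_symm_apply c
  rw [h1, Matrix.one_apply, Matrix.one_apply]
  simp only [eq_comm]

lemma det_tw_one_sq {R : Type*} [CommRing R] (π : Equiv.Perm Ω) :
    (tw π (fun _ => (1 : Matrix n n R))).det ^ 2 = 1 := by
  rw [sq]
  nth_rewrite 2 [← Matrix.det_transpose]
  rw [tw_transpose, ← Matrix.det_mul, tw_mul, mul_inv_cancel]
  simp [tw_one]

omit [Fintype n] in
lemma tw_mulSingle {R : Type*} [CommRing R] (i : Ω) (A : Matrix n n R) :
    (tw (1 : Equiv.Perm Ω) (Pi.mulSingle i A)) =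
      (A ⊗ₖ (1 : Matrix ({j // j ≠ i} → n) ({j // j ≠ i} → n) R)).submatrix
        (Equiv.funSplitAt i n) (Equiv.funSplitAt i n) := by
  ext p q
  rw [tw_apply, submatrix_apply, kroneckerMap_apply, Matrix.one_apply]
  rw [Fintype.prod_eq_mul_prod_compl i, Pi.mulSingle_eq_same]
  congr 1
  by_cases h : (Equiv.funSplitAt i n p).2 = (Equiv.funSplitAt i n q).2
  · rw [if_pos h]
    refine Finset.prod_eq_one fun c hc => ?_
    have hci : c ≠ i := by simpa using hc
    rw [Pi.mulSingle_eq_of_ne hci]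
    have := congrFun h ⟨c, hci⟩
    simp only [Equiv.funSplitAt_apply] at this
    rw [Equiv.Perm.one_apply, this]
    exact Matrix.one_apply_eq _
  · rw [if_neg h]
    obtain ⟨⟨c, hci⟩, hc⟩ := Function.ne_iff.1 h
    simp only [Equiv.funSplitAt_apply] at hc
    refine Finset.prod_eq_zero (i := c) (by simpa using hci) ?_
    rw [Pi.mulSingle_eq_of_ne hci]
    exact Matrix.one_apply_ne hc

lemma det_tw_SL {R : Type*} [CommRing R] (A : Ω → SpecialLinearGroup n R) :
    (tw (1 : Equiv.Perm Ω) (fun c => (A c).1)).det = 1 := by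
  let f : (Ω → SpecialLinearGroup n R) →* R :=
    { toFun := fun A => (tw (1 : Equiv.Perm Ω) (fun c => (A c).1)).det
      map_one' := by
        have : (fun c : Ω => ((1 : Ω → SpecialLinearGroup n R) c).1) =
          fun _ => (1 : Matrix n n R) := rfl
        rw [this, tw_one, det_one]
      map_mul' := by
        intro A B
        rw [← det_mul, tw_mul]
        rfl }
  have hf : f = 1 := by
    refine MonoidHom.pi_ext fun i x => ?_
    show (tw (1 : Equiv.Perm Ω)
      (fun c => (Pi.mulSingle (M := fun _ => SpecialLinearGroup n R) i x c).1)).det = 1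
    have : (fun c => (Pi.mulSingle (M := fun _ => SpecialLinearGroup n R) i x c).1) =
        Pi.mulSingle i x.1 := by
      ext1 c
      by_cases hc : c = i
      · subst hc
        rw [Pi.mulSingle_eq_same, Pi.mulSingle_eq_same]
      · rw [Pi.mulSingle_eq_of_ne hc, Pi.mulSingle_eq_of_ne hc]
        rfl
    rw [this, tw_mulSingle, det_submatrix_equiv_self, det_kronecker, x.2]
    simp
  exact DFunLike.congr_fun hf A

lemma tw_eq {R : Type*} [CommRing R] (π : Equiv.Perm Ω) (A : Ω → Matrix n n R) :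
    tw π A = tw π (fun _ => 1) * tw 1 A := by
  rw [tw_mul]
  simp

lemma det_tw {R : Type*} [CommRing R] (π : Equiv.Perm Ω) (A : Ω → SpecialLinearGroup n R) :
    (tw π (fun c => (A c).1)).det = (tw π (fun _ => (1 : Matrix n n R))).det := by
  rw [tw_eq, det_mul, det_tw_SL, mul_one]

/-- the unique representative with `(t c)⁻¹ x t c' ∈ H'` -/
noncomputable def actT {F : Type} [Group F] {Ω : Type} [Nonempty Ω] (H' : Subgroup F) (t : Ω → F)
    (x : F) (c' : Ω) : Ω :=
  Classical.epsilon fun c => (t c)⁻¹ * x * t c' ∈ H'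

/-- The matrices of the tensor induced representation (T++). -/
noncomputable def tiM {F : Type} [Group F] {Ω n : Type} [Fintype Ω] [Nonempty Ω] (H' : Subgroup F)
    (t : Ω → F) (σ : F → Matrix n n ℂ) (x : F) : Matrix (Ω → n) (Ω → n) ℂ :=
  Matrix.of fun p q => ∏ c : Ω, σ ((t (actT H' t x c))⁻¹ * x * t c) (p (actT H' t x c)) (q c)

variable {F : Type} [Group F] [Nonempty Ω]

omit [DecidableEq Ω] in
lemma actT_eq {H H' : Subgroup F} {t : Ω → F} (ht : Trans H H' t) {x : F} (hx : x ∈ H) (c : Ω) :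
    actT H' t x c = permT ht x hx c := by
  apply ht.eq_of_mem hx (c := c) _ (permT_spec ht x hx c)
  exact Classical.epsilon_spec (p := fun c' => (t c')⁻¹ * x * t c ∈ H') ⟨_, permT_spec ht x hx c⟩

omit [DecidableEq Ω] [Fintype n] [DecidableEq n] in
lemma tiM_eq {H H' : Subgroup F} {t : Ω → F} (ht : Trans H H' t) {x : F} (hx : x ∈ H)
    (σ : F → Matrix n n ℂ) :
    tiM H' t σ x = tw (permT ht x hx) fun c => σ ((t (permT ht x hx c))⁻¹ * x * t c) := by
  ext p q
  simp only [tiM, of_apply, tw_apply, actT_eq ht hx]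

omit [DecidableEq Ω] [Nonempty Ω] in
lemma permT_mul {H H' : Subgroup F} {t : Ω → F} (ht : Trans H H' t) {x y : F} (hx : x ∈ H)
    (hy : y ∈ H) : permT ht (x * y) (H.mul_mem hx hy) = permT ht x hx * permT ht y hy := by
  ext c
  rw [Equiv.Perm.mul_apply]
  symm
  rw [← mem_iff_permT]
  have := H'.mul_mem (permT_spec ht x hx (permT ht y hy c)) (permT_spec ht y hy c)
  convert this using 1
  group

omit [DecidableEq Ω] [Nonempty Ω] in
lemma permT_eq_one {H H' : Subgroup F} {t : Ω → F} (ht : Trans H H' t) {x : F} (hx : x ∈ H)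
    (h : ∀ c, (t c)⁻¹ * x * t c ∈ H') : permT ht x hx = 1 := by
  ext c
  rw [Equiv.Perm.one_apply]
  symm
  rw [← mem_iff_permT]
  exact h c

lemma tiM_mul {H H' : Subgroup F} {t : Ω → F} (ht : Trans H H' t)
    (σ : F → Matrix n n ℂ) (hσ : MulOn H' σ) {x y : F} (hx : x ∈ H) (hy : y ∈ H) :
    tiM H' t σ (x * y) = tiM H' t σ x * tiM H' t σ y := by
  rw [tiM_eq ht (H.mul_mem hx hy), tiM_eq ht hx, tiM_eq ht hy, tw_mul]
  rw [permT_mul ht hx hy]
  congr 1
  ext1 c
  rw [← hσ.mul _ (permT_spec ht x hx _) _ (permT_spec ht y hy c)]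
  congr 1
  rw [Equiv.Perm.mul_apply]
  group

omit [DecidableEq Ω] in
lemma tiM_one {H H' : Subgroup F} {t : Ω → F} (ht : Trans H H' t)
    (σ : F → Matrix n n ℂ) (hσ : MulOn H' σ) : tiM H' t σ 1 = 1 := by
  have h1 : permT ht 1 H.one_mem = 1 := permT_eq_one ht _ fun c => by simp
  rw [tiM_eq ht H.one_mem, h1]
  have : (fun c : Ω => σ ((t ((1 : Equiv.Perm Ω) c))⁻¹ * 1 * t c)) = fun _ => 1 := by
    ext1 c
    rw [Equiv.Perm.one_apply, mul_one, inv_mul_cancel, hσ.one]
  rw [this, tw_one]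

end Vale.Agent.P002.H377
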