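import Vale.Agent.P002.H377.TInd
import Vale.Agent.P002.H326J.J10

/-!
# The base case of virtually solvable image: one subgroup
-/

namespace Vale.Agent.P002.H377

open Matrix NumberField Vale.Agent.P002.H2 Vale.Agent.P002R.Orb commutatorElement
open Vale.Agent.P002.H306 (mh Ssi Inv mem_YNone_iff va_dense)
open Vale.Agent.P002.H326J (va_index exists_delta exists_sep exists_word evX va_of_vs)

lemma mem_OL_iff {L : IntermediateField ℚ ℂ} {z : ℂ} : z ∈ OL L ↔ z ∈ L ∧ IsIntegral ℤ z := by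
  rw [mem_OL]
  constructor
  · rintro ⟨a, rfl⟩
    refine ⟨a.1.2, ?_⟩
    have h1 : IsIntegral ℤ a.1 := a.2
    exact h1.map (IntermediateField.val L).toRingHom.toIntAlgHom
  · rintro ⟨h1, h2⟩
    have h3 : IsIntegral ℤ (⟨z, h1⟩ : L) := by
      refine (isIntegral_algHom_iff (IntermediateField.val L).toRingHom.toIntAlgHom ?_).1 ?_
      · exact (IntermediateField.val L).toRingHom.injective
      · exact h2
    exact ⟨⟨⟨z, h1⟩, h3⟩, rfl⟩

lemma OL_mono {L L' : IntermediateField ℚ ℂ} (h : L ≤ L') {z : ℂ} (hz : z ∈ OL L) : z ∈ OL L' := by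
  rw [mem_OL_iff] at *
  exact ⟨h hz.1, hz.2⟩

section order

open Vale.Agent.P002.H326J Vale.Agent.P002.H306

/-- a uniform bound for the order -/
theorem order_bound {α : Type} {r : ℕ} {ρ : FreeGroup α →* Matrix (Fin r) (Fin r) ℂ} (hρ : Ssi ρ)
    (K : Subgroup (FreeGroup α)) [K.Normal] [K.FiniteIndex]
    (hK : ∀ a ∈ K, ∀ b ∈ K, ρ a * ρ b = ρ b * ρ a) (w : FreeGroup α) {E : ℕ}
    (hw : ∀ z, (ρ w).charpoly.IsRoot z → z ^ E = 1) :
    ρ w ^ (K.index * E) = 1 := by
  obtain ⟨P, Q, hPQ, hQP, hdiag⟩ := Vale.Agent.P002.H306.exists_diag ρ hρ K hK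
  have hk0 : 0 < K.index := Nat.pos_of_ne_zero Subgroup.FiniteIndex.index_ne_zero
  obtain ⟨d, hd⟩ := hdiag (w ^ K.index) (Subgroup.pow_index_mem K w)
  rw [map_pow] at hd
  have hroot : ∀ i, d i ^ E = 1 := by
    intro i
    have h1 : (ρ w ^ K.index).charpoly.IsRoot (d i) := by
      rw [charpoly_conj hPQ hQP hd, charpoly_diagonal]
      exact Polynomial.IsRoot.def.2 (by
        rw [Polynomial.eval_prod]
        exact Finset.prod_eq_zero (Finset.mem_univ i) (by simp))
    obtain ⟨y, hy, hy'⟩ := eig_pow (ρ w) hk0 h1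
    rw [← hy', ← pow_mul, mul_comm, pow_mul, hw y hy, one_pow]
  have hpow : ∀ m : ℕ, Q * (ρ w ^ K.index) ^ m * P = diagonal (fun i => d i ^ m) := by
    intro m
    induction m with
    | zero =>
      rw [pow_zero, mul_one, hQP]
      simp
    | succ m ih =>
      rw [pow_succ]
      calc Q * ((ρ w ^ K.index) ^ m * ρ w ^ K.index) * P
          = Q * (ρ w ^ K.index) ^ m * 1 * ρ w ^ K.index * P := by
            simp only [Matrix.mul_assoc, Matrix.one_mul]
        _ = (Q * (ρ w ^ K.index) ^ m * P) * (Q * ρ w ^ K.index * P) := by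
            rw [← hPQ]
            simp only [Matrix.mul_assoc]
        _ = _ := by
            rw [ih, hd, diagonal_mul_diagonal]
            simp only [pow_succ]
  have h1 := hpow E
  simp only [hroot] at h1
  have h2 : (diagonal fun _ : Fin r => (1 : ℂ)) = 1 := diagonal_one
  rw [h2] at h1
  rw [pow_mul]
  calc (ρ w ^ K.index) ^ E = (P * Q) * (ρ w ^ K.index) ^ E * (P * Q) := by
        rw [hPQ, Matrix.one_mul, Matrix.mul_one]
    _ = P * (Q * (ρ w ^ K.index) ^ E * P) * Q := by simp only [Matrix.mul_assoc]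
    _ = 1 := by rw [h1, Matrix.mul_one, hPQ]

end order

/-- integral matrices generate integral matrices -/
lemma lift_integral {α : Type} {n : ℕ} {L : IntermediateField ℚ ℂ}
    {X : α → SpecialLinearGroup (Fin n) ℂ} (hX : IsIntegralRep L X) (c : FreeGroup α) (i j : Fin n) :
    (FreeGroup.lift X c).1 i j ∈ OL L := by
  have h : ∀ p, ∃ A : SpecialLinearGroup (Fin n) (OL L),
      SpecialLinearGroup.map (OL L).subtype A = X p := by
    intro p
    have h1 : ∀ i j, (X p).1 i j ∈ OL L := fun i j => mem_OL.2 (hX p i j)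
    let A : Matrix (Fin n) (Fin n) (OL L) := Matrix.of fun i j => ⟨(X p).1 i j, h1 i j⟩
    have hA : (OL L).subtype.mapMatrix A = (X p).1 := by
      ext i j
      rfl
    refine ⟨⟨A, ?_⟩, ?_⟩
    · apply (OL L).subtype_injective
      rw [RingHom.map_det, hA, (X p).2, map_one]
    · exact Subtype.ext hA
  choose A hA using h
  have h2 : FreeGroup.lift X = (SpecialLinearGroup.map (OL L).subtype).comp (FreeGroup.lift A) := by
    ext p : 1
    simp [hA]
  rw [h2]
  exact ((FreeGroup.lift A c).1 i j).2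

/-- derived series and homomorphisms -/
lemma derived_le {F : Type} [Group F] {G : Type} [Group G] (g : G →* F) {B : Subgroup F}
    (h : g.range ≤ B) (k : ℕ) : (derivedSeries G k).map g ≤ dser B k := by
  induction k with
  | zero =>
    rw [derivedSeries_zero]
    rintro _ ⟨x, -, rfl⟩
    exact h ⟨x, rfl⟩
  | succ k ih =>
    rw [derivedSeries_succ, Subgroup.map_commutator]
    exact Subgroup.commutator_mono ih ih

lemma charpoly_root_lin {n : ℕ} (A : Matrix (Fin n) (Fin n) ℂ) (z : ℂ) :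
    A.charpoly.IsRoot z ↔ Module.End.HasEigenvalue (Matrix.toLin' A) z := by
  rw [Module.End.hasEigenvalue_iff_isRoot_charpoly]
  rw [show (Matrix.toLin' A).charpoly = A.charpoly from Matrix.charpoly_toLin' A]

/-- evaluation of polynomial functions through generators -/
lemma PF_eval {F α : Type} [Group F] {H : Subgroup F} {n : ℕ} (π : FreeGroup α →* H)
    (hπ : Function.Surjective π) {P : (F → SpecialLinearGroup (Fin n) ℂ) → ℂ}
    (hP : P ∈ PF H (Fin n)) : ∃ G : MvPolynomial (α × Fin n × Fin n) ℂ,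
      ∀ (σ : F → SpecialLinearGroup (Fin n) ℂ) (X : α → SpecialLinearGroup (Fin n) ℂ),
        (∀ c, σ (π c).1 = FreeGroup.lift X c) → P σ = value G X := by
  refine Algebra.adjoin_induction (p := fun P _ => ∃ G : MvPolynomial (α × Fin n × Fin n) ℂ,
      ∀ (σ : F → SpecialLinearGroup (Fin n) ℂ) (X : α → SpecialLinearGroup (Fin n) ℂ),
        (∀ c, σ (π c).1 = FreeGroup.lift X c) → P σ = value G X) ?_ ?_ ?_ ?_ hP
  · rintro Q ⟨x, hx, i, j, rfl⟩
    obtain ⟨c, hc⟩ := hπ ⟨x, hx⟩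
    obtain ⟨M, hM⟩ := exists_word n c
    refine ⟨M i j, fun σ X h => ?_⟩
    have h1 := h c
    rw [hc] at h1
    show (σ x).1 i j = _
    rw [h1, ← hM X]
    rfl
  · intro r
    refine ⟨MvPolynomial.C r, fun σ X _ => ?_⟩
    rw [Vale.Agent.P002.H326J.value_eq, evX, MvPolynomial.coe_eval₂Hom, MvPolynomial.eval₂_C]
    rfl
  · rintro P Q _ _ ⟨G, hG⟩ ⟨G', hG'⟩
    refine ⟨G + G', fun σ X h => ?_⟩
    rw [Vale.Agent.P002.H326J.value_eq, map_add, Pi.add_apply, hG σ X h, hG' σ X h]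
    rfl
  · rintro P Q _ _ ⟨G, hG⟩ ⟨G', hG'⟩
    refine ⟨G * G', fun σ X h => ?_⟩
    rw [Vale.Agent.P002.H326J.value_eq, map_mul, Pi.mul_apply, hG σ X h, hG' σ X h]
    rfl

theorem core {ι : Type} [Finite ι] (H : Subgroup (FreeGroup ι)) (hH : H.index ≠ 0) (n E : ℕ)
    (hE : 0 < E) {β : Type} [Finite β] (u : β → FreeGroup ι) (hu : ∀ j, u j ∈ H) :
    ∃ L : IntermediateField ℚ ℂ, FiniteDimensional ℚ L ∧
      ∀ σ : FreeGroup ι → SpecialLinearGroup (Fin n) ℂ, MulOn H σ → Irr H (H2.lin σ) → VS H σ →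
        (∀ j z, (σ (u j)).1.charpoly.IsRoot z → z ^ E = 1) → ∀ P ∈ PF H (Fin n), P σ ≠ 0 →
        ∃ σ' : FreeGroup ι → SpecialLinearGroup (Fin n) ℂ, MulOn H σ' ∧
          (∀ x ∈ H, ∀ i j, (σ' x).1 i j ∈ OL L) ∧ (∀ j, IsConj (σ (u j)) (σ' (u j))) ∧
          (∃ A ≤ H, A.relIndex H ≠ 0 ∧ ∀ a ∈ A, ∀ b ∈ A, σ' ⁅a, b⁆ = 1) ∧ P σ' ≠ 0 := by
  classical
  have := Fintype.ofFinite β
  have : H.FiniteIndex := ⟨hH⟩
  obtain ⟨α, hα, π, hπ⟩ := Group.fg_iff_exists_freeGroup_hom_surjective_finite.1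
    (inferInstance : Group.FG H)
  obtain ⟨J, hJ⟩ := va_index n
  obtain ⟨Δ, hΔn, hΔf, hΔ⟩ := exists_delta α J
  choose v hv using fun j => hπ ⟨u j, hu j⟩
  have hm0 : 0 < Δ.index := Nat.pos_of_ne_zero Subgroup.FiniteIndex.index_ne_zero
  let R' : Set (FreeGroup α) := {c | π c = 1} ∪ {c | (∃ a ∈ Δ, ∃ b ∈ Δ, c = ⁅a, b⁆) ∨
      ∃ j, c = v j ^ (Δ.index * E)}
  obtain ⟨L, hL, hden⟩ := va_dense R' Δ (fun a ha b hb =>
    Subgroup.subset_normalClosure (Or.inr (Or.inl ⟨a, ha, b, hb, rfl⟩))) n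
  refine ⟨L, hL, fun σ hσ hirr hvs heig P hP hPσ => ?_⟩
  -- the tuple of `σ`
  let X : α → SpecialLinearGroup (Fin n) ℂ := fun a => σ (π (FreeGroup.of a)).1
  have hX : ∀ c, σ (π c).1 = FreeGroup.lift X c := by
    have : (homOf hσ).comp π = FreeGroup.lift X := by
      ext a : 1
      simp [X]
    intro c
    rw [← this]
    rfl
  have hssi : Ssi (mh X) := by
    intro W hW
    have h1 := hirr.2 W (by
      intro x hx w hw
      obtain ⟨c, hc⟩ := hπ ⟨x, hx⟩
      have h2 := hX c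
      rw [hc] at h2
      have h3 : H2.lin σ x w = (mh X c) *ᵥ w := by
        show Matrix.toLin' (σ x).1 w = _
        rw [Matrix.toLin'_apply, show σ x = FreeGroup.lift X c from h2]
        rfl
      rw [h3]
      exact hW c w hw)
    rcases h1 with h1 | h1
    · refine ⟨⊤, fun g v _ => trivial, ?_⟩
      rw [h1]
      exact isCompl_bot_top
    · refine ⟨⊥, fun g v hv => ?_, ?_⟩
      · rw [Submodule.mem_bot] at hv ⊢
        rw [hv, mulVec_zero]
      · rw [h1]
        exact isCompl_top_bot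
  -- commuting on `Δ`
  have hcomm : ∀ a ∈ Δ, ∀ b ∈ Δ, mh X a * mh X b = mh X b * mh X a := by
    obtain ⟨B', hB', hB'i, k, hk⟩ := hvs
    let f : FreeGroup α →* FreeGroup ι := H.subtype.comp π
    have hfr : f.range = H := by
      rw [MonoidHom.range_comp, MonoidHom.range_eq_top.2 hπ, ← MonoidHom.range_eq_map,
        Subgroup.range_subtype]
    have hfi : (B'.comap f).FiniteIndex := by
      refine ⟨?_⟩
      rwa [Subgroup.index_comap, hfr]
    obtain ⟨K, hKn, hKf, hK⟩ := va_of_vs (mh X) hssi (B'.comap f) hfi k (by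
      intro g hg
      have h1 := derived_le (f.comp (B'.comap f).subtype) (B := B') (by
        rintro _ ⟨x, rfl⟩
        exact x.2) k (Subgroup.mem_map_of_mem _ hg)
      have h2 := hk _ h1
      have h3 := hX g.1
      show (FreeGroup.lift X g.1).1 = 1
      rw [← h3, show ((π g.1 : H) : FreeGroup ι) = (f.comp (B'.comap f).subtype) g from rfl, h2]
      rfl)
    obtain ⟨A, hA0, hAJ, hA⟩ := hJ (FreeGroup α) (mh X) hssi K hK
    have hle := hΔ A hA0 hAJ
    exact fun a ha b hb => hA a (hle ha) b (hle hb)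
  have hXu : ∀ j, FreeGroup.lift X (v j) = σ (u j) := fun j => by rw [← hX, hv]
  have hord : ∀ j, FreeGroup.lift X (v j) ^ (Δ.index * E) = 1 := by
    intro j
    apply Subtype.ext
    have := order_bound hssi Δ hcomm (v j) (E := E) (by
      intro z hz
      refine heig j z ?_
      rw [← hXu]
      exact hz)
    exact this
  have hXR : X ∈ YNone R' n := by
    refine (mem_YNone_iff R' X).2 ⟨?_, hssi⟩
    rintro c (hc | ⟨a, ha, b, hb, rfl⟩ | ⟨j, rfl⟩)
    · show (FreeGroup.lift X c).1 = 1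
      rw [← hX, show π c = 1 from hc, Subgroup.coe_one, hσ.one]
      rfl
    · have h1 : FreeGroup.lift X ⁅a, b⁆ = 1 := by
        rw [map_commutatorElement, commutatorElement_eq_one_iff_mul_comm]
        exact Subtype.ext (hcomm a ha b hb)
      show (FreeGroup.lift X ⁅a, b⁆).1 = 1
      rw [h1]
      rfl
    · show (FreeGroup.lift X (v j ^ (Δ.index * E))).1 = 1
      rw [map_pow, hord]
      rfl
  have hN : 0 < Δ.index * E := Nat.mul_pos hm0 hE
  choose G hG using fun j => exists_sep (v j) (σ (u j)) hN (by rw [← hXu]; exact hord j)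
  obtain ⟨Q, hQ⟩ := PF_eval π hπ hP
  have hprod : ∀ X : α → SpecialLinearGroup (Fin n) ℂ,
      value (Q * ∏ j, G j) X = value Q X * ∏ j, value (G j) X := fun X => by
    simp only [Vale.Agent.P002.H326J.value_eq, map_mul, map_prod]
  have hne : value (Q * ∏ j, G j) X ≠ 0 := by
    rw [hprod]
    refine mul_ne_zero ?_ (Finset.prod_ne_zero_iff.2 fun j _ => (hG j X).1 ?_)
    · rw [← hQ σ X hX]
      exact hPσ
    · rw [hXu]
  obtain ⟨Y, hYR, hYint, hYne⟩ : ∃ Y ∈ YNone R' n, IsIntegralRep L Y ∧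
      value (Q * ∏ j, G j) Y ≠ 0 := by
    by_contra hcon
    push Not at hcon
    exact hne (hden _ (fun Y hY hYi => hcon Y hY hYi) X hXR)
  have hYR' := (mem_YNone_iff R' Y).1 hYR
  -- the new representation
  choose pre hpre using hπ
  obtain ⟨σ', hσ'⟩ : ∃ σ' : FreeGroup ι → SpecialLinearGroup (Fin n) ℂ,
      ∀ c, σ' (π c).1 = FreeGroup.lift Y c := by
    refine ⟨fun x => if hx : x ∈ H then FreeGroup.lift Y (pre ⟨x, hx⟩) else 1, fun c => ?_⟩
    simp only [dif_pos (π c).2]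
    have h1 : FreeGroup.lift Y (pre (π c) * c⁻¹) = 1 := by
      apply Subtype.ext
      refine hYR'.1 _ (Or.inl ?_)
      show π _ = 1
      rw [map_mul, hpre, map_inv, mul_inv_cancel]
    rw [map_mul, map_inv, mul_inv_eq_one] at h1
    exact h1
  have hlift : ∀ x ∈ H, ∃ c, (π c).1 = x := fun x hx => ⟨pre ⟨x, hx⟩, by rw [hpre]⟩
  have hmul : MulOn H σ' := by
    constructor
    · have := hσ' 1
      rwa [map_one, Subgroup.coe_one, map_one] at this
    · intro x hx y hy
      obtain ⟨c, rfl⟩ := hlift x hx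
      obtain ⟨d, rfl⟩ := hlift y hy
      rw [hσ', hσ', ← Subgroup.coe_mul, ← map_mul, hσ', map_mul]
  rw [hprod] at hYne
  have hYne1 := left_ne_zero_of_mul hYne
  have hYne2 := Finset.prod_ne_zero_iff.1 (right_ne_zero_of_mul hYne)
  refine ⟨σ', hmul, ?_, ?_, ?_, ?_⟩
  · intro x hx i j
    obtain ⟨c, rfl⟩ := hlift x hx
    rw [hσ']
    exact lift_integral hYint c i j
  · intro j
    by_contra hcon
    refine hYne2 j (Finset.mem_univ j) ((hG j Y).2 ?_ ?_)
    · rw [← map_pow]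
      exact Subtype.ext (hYR'.1 _ (Or.inr (Or.inr ⟨j, rfl⟩)))
    · rw [← hσ', hv]
      exact hcon
  · refine ⟨Δ.map (H.subtype.comp π), ?_, ?_, ?_⟩
    · rintro _ ⟨x, -, rfl⟩
      exact (π x).2
    · have h1 : (⊤ : Subgroup (FreeGroup α)).map (H.subtype.comp π) = H := by
        rw [← MonoidHom.range_eq_map, MonoidHom.range_comp, MonoidHom.range_eq_top.2
          (fun x => ⟨pre x, hpre x⟩), ← MonoidHom.range_eq_map, Subgroup.range_subtype]
      have h2 := Subgroup.relIndex_map_map (H.subtype.comp π) Δ ⊤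
      rw [h1, top_sup_eq, Subgroup.relIndex_top_right] at h2
      rw [h2]
      exact (Subgroup.finiteIndex_of_le (H := Δ) le_sup_left).index_ne_zero
    · rintro _ ⟨a, ha, rfl⟩ _ ⟨b, hb, rfl⟩
      rw [← map_commutatorElement]
      show σ' (π ⁅a, b⁆).1 = 1
      rw [hσ']
      exact Subtype.ext (hYR'.1 _ (Or.inr (Or.inl ⟨a, ha, b, hb, rfl⟩)))
  · rw [hQ σ' Y hσ']
    exact hYne1

end Vale.Agent.P002.H377
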