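import Vale.Agent.P002.H377.VS1

/-!
# The base case of virtually solvable image
-/

namespace Vale.Agent.P002.H377

open Matrix NumberField Vale.Agent.P002.H2 Vale.Agent.P002R.Orb commutatorElement

lemma finite_subgroups (ι : Type) [Finite ι] (B : ℕ) :
    {H : Subgroup (FreeGroup ι) | H.index ≠ 0 ∧ H.index ≤ B}.Finite := by
  obtain ⟨Δ, hΔn, hΔf, hΔ⟩ := Vale.Agent.P002.H326J.exists_delta ι B
  have hfin : Finite (FreeGroup ι ⧸ Δ) := inferInstance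
  have hfin' : Finite (Subgroup (FreeGroup ι ⧸ Δ)) := inferInstance
  refine Set.Finite.of_injOn (f := fun H => H.map (QuotientGroup.mk' Δ)) (t := Set.univ)
    (fun _ _ => trivial) ?_ Set.finite_univ
  intro H hH H' hH' h
  have h1 : ∀ K : Subgroup (FreeGroup ι), Δ ≤ K →
      (K.map (QuotientGroup.mk' Δ)).comap (QuotientGroup.mk' Δ) = K := by
    intro K hK
    rw [Subgroup.comap_map_eq, QuotientGroup.ker_mk', sup_eq_left]
    exact hK
  rw [← h1 H (hΔ H hH.1 hH.2), ← h1 H' (hΔ H' hH'.1 hH'.2)]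
  exact congrArg _ h

/-- scalars in `SL` -/
lemma eq_of_isConj_scalar {n : ℕ} {A B : SpecialLinearGroup (Fin n) ℂ} {c : ℂ}
    (hA : A.1 = c • 1) (h : IsConj A B) : B = A := by
  obtain ⟨U, hU⟩ := isConj_iff.1 h
  rw [← hU]
  apply Subtype.ext
  show U.1 * A.1 * (U⁻¹).1 = A.1
  have h1 : U.1 * (U⁻¹).1 = 1 := congrArg Subtype.val (mul_inv_cancel U)
  rw [hA, Matrix.mul_smul, Matrix.smul_mul, mul_one, h1]

lemma conj_scalar {n : ℕ} {A U : SpecialLinearGroup (Fin n) ℂ} {c : ℂ}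
    (hA : A.1 = c • 1) : U * A * U⁻¹ = A :=
  eq_of_isConj_scalar hA (isConj_iff.2 ⟨U, rfl⟩)

lemma isConj_zpow {G : Type*} [Group G] {a b : G} (h : IsConj a b) (m : ℤ) :
    IsConj (a ^ m) (b ^ m) := by
  obtain ⟨c, hc⟩ := isConj_iff.1 h
  exact isConj_iff.2 ⟨c, by rw [← hc, conj_zpow]⟩

lemma pow_root {n N₀ : ℕ} (A : SpecialLinearGroup (Fin n) ℂ)
    (h : ∀ a b, A.1.charpoly.IsRoot a → A.1.charpoly.IsRoot b → a ^ N₀ = b ^ N₀) (z : ℂ)
    (hz : A.1.charpoly.IsRoot z) : z ^ (N₀ * n) = 1 := by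
  have h1 : A.1.det = A.1.charpoly.roots.prod := by
    rw [Matrix.det_eq_prod_roots_charpoly]
  have h2 : Multiset.card A.1.charpoly.roots = n := by
    rw [IsAlgClosed.card_roots_eq_natDegree, Matrix.charpoly_natDegree_eq_dim, Fintype.card_fin]
  have h3 : (A.1.charpoly.roots.map fun b => b ^ N₀).prod = z ^ (N₀ * n) := by
    have h4 : A.1.charpoly.roots.map (fun b => b ^ N₀) = Multiset.replicate n (z ^ N₀) := by
      rw [Multiset.eq_replicate]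
      refine ⟨by rw [Multiset.card_map, h2], fun x hx => ?_⟩
      obtain ⟨b, hb, rfl⟩ := Multiset.mem_map.1 hx
      exact h b z (Polynomial.isRoot_of_mem_roots hb) hz
    rw [h4, Multiset.prod_replicate, pow_mul]
  rw [← h3, Multiset.prod_map_pow, Multiset.map_id', ← h1, A.2, one_pow]

/-- generator of the set of the `a` with `x w^a x⁻¹ ∈ H` -/
lemma exists_gen {F : Type} [Group F] (H : Subgroup F) (x w : F) :
    ∃ d : ℤ, x * w ^ d * x⁻¹ ∈ H ∧ ∀ a : ℤ, x * w ^ a * x⁻¹ ∈ H → ∃ m : ℤ, a = d * m := by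
  let S : AddSubgroup ℤ :=
    { carrier := {k | x * w ^ k * x⁻¹ ∈ H}
      zero_mem' := by simp
      add_mem' := by
        intro k l hk hl
        have := H.mul_mem hk hl
        simp only [Set.mem_ofPred_eq] at *
        convert this using 1
        rw [_root_.zpow_add]
        group
      neg_mem' := by
        intro k hk
        have := H.inv_mem hk
        simp only [Set.mem_ofPred_eq] at *
        convert this using 1
        group }
  obtain ⟨d, hd⟩ := Int.subgroup_cyclic S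
  refine ⟨d, ?_, fun a ha => ?_⟩
  · show d ∈ S
    rw [hd]
    exact AddSubgroup.subset_closure rfl
  · have h1 : a ∈ S := ha
    rw [hd, AddSubgroup.mem_closure_singleton] at h1
    obtain ⟨m, hm⟩ := h1
    exact ⟨m, by rw [← hm, smul_eq_mul, mul_comm]⟩

section

variable {ι : Type} {I : Type} [MulAction (FreeGroup ι) I]

/-- PC2 for one subgroup -/
theorem PC2_one [Finite ι] (C : Ctx (FreeGroup ι) I) (R : Set (FreeGroup ι)) {s : ℕ}
    (w : Fin s → FreeGroup ι) (hfin : R.Finite) (hZ : C.Z = Subgroup.normalClosure R)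
    (hRel : ∀ y, y ∈ C.Rel ↔ ∃ x j, ∃ a : ℤ, y = x * w j ^ a * x⁻¹) (N₀ : ℕ) (hN₀ : 0 < N₀)
    (H : Subgroup (FreeGroup ι)) (hH : H.index ≠ 0) (hZH : C.Z ≤ H) (n : ℕ) (hn : 0 < n) :
    ∃ L : IntermediateField ℚ ℂ, FiniteDimensional ℚ L ∧
      ∀ L' : IntermediateField ℚ ℂ, L ≤ L' →
      ∀ σ : FreeGroup ι → SpecialLinearGroup (Fin n) ℂ,
        MulOn H σ → Adm C N₀ H (H2.lin σ) → VS H σ → D C L' H σ := by
  classical
  have hR : Finite R := hfin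
  obtain ⟨t, ht⟩ := PC5a ⊤ H le_top (by rwa [Subgroup.relIndex_top_right])
  choose d hd hd' using fun (q : Fin (H.relIndex ⊤) × Fin s) => exists_gen H (t q.1)⁻¹ (w q.2)
  let u : (Fin (H.relIndex ⊤) × R) ⊕ (Fin (H.relIndex ⊤) × Fin s) → FreeGroup ι := Sum.elim
    (fun q => (t q.1)⁻¹ * q.2.1 * (t q.1)⁻¹⁻¹) (fun q => (t q.1)⁻¹ * w q.2 ^ d q * (t q.1)⁻¹⁻¹)
  have hRZ : ∀ r ∈ R, r ∈ C.Z := fun r hr => by
    rw [hZ]
    exact Subgroup.subset_normalClosure hr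
  have hu : ∀ j, u j ∈ H := by
    rintro (⟨c, r⟩ | q)
    · exact hZH (C.hZ _ _ (hRZ _ r.2))
    · exact hd q
  obtain ⟨L, hL, hcore⟩ := core H hH n (N₀ * n) (Nat.mul_pos hN₀ hn) u hu
  refine ⟨L, hL, fun L' hLL' σ hσ hadm hvs P hP hPσ => ?_⟩
  have hscal : ∀ z ∈ C.Z, ∃ c : ℂ, (σ z).1 = c • 1 := by
    intro z hz
    obtain ⟨c, hc⟩ := hadm.zscal z hz
    refine ⟨c, ?_⟩
    have h1 : Matrix.toLin' (σ z).1 = Matrix.toLin' (c • (1 : Matrix (Fin n) (Fin n) ℂ)) := by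
      rw [map_smul, Matrix.toLin'_one]
      exact hc
    exact Matrix.toLin'.injective h1
  have hroots : ∀ y ∈ C.Rel, y ∈ H → ∀ z, (σ y).1.charpoly.IsRoot z → z ^ (N₀ * n) = 1 := by
    intro y hy hyH z hz
    refine pow_root (σ y) (fun a b ha hb => ?_) z hz
    exact hadm.eig y hy hyH a b ((charpoly_root_lin _ _).1 ha) ((charpoly_root_lin _ _).1 hb)
  obtain ⟨σ', hmul, hint, hconj, ⟨A, hAH, hAi, hA⟩, hPσ'⟩ := hcore σ hσ hadm.irr hvs (by
    rintro (⟨c, r⟩ | q) z hz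
    · obtain ⟨e, he⟩ := hscal (u (Sum.inl (c, r))) (C.hZ _ _ (hRZ _ r.2))
      have h1 : e ^ n = 1 := by
        have := (σ (u (Sum.inl (c, r)))).2
        rw [he, det_smul, det_one, mul_one, Fintype.card_fin] at this
        exact this
      rw [he] at hz
      have h2 : (Matrix.toLin' (e • (1 : Matrix (Fin n) (Fin n) ℂ))) =
          e • (LinearMap.id : (Fin n → ℂ) →ₗ[ℂ] (Fin n → ℂ)) := by
        rw [map_smul, Matrix.toLin'_one]
      have h3 : z = e := by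
        rw [charpoly_root_lin, h2] at hz
        obtain ⟨v, hv⟩ := hz.exists_hasEigenvector
        have h4 := hv.apply_eq_smul
        have h5 : e • v = z • v := h4
        exact (smul_left_injective ℂ hv.2 h5).symm
      rw [h3, mul_comm, pow_mul, h1, one_pow]
    · refine hroots _ ?_ (hd q) z hz
      rw [hRel]
      exact ⟨_, _, _, rfl⟩) P hP hPσ
  -- decomposition of elements
  have hdec : ∀ x : FreeGroup ι, ∃ h ∈ H, ∃ c, x = h * (t c)⁻¹ := by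
    intro x
    obtain ⟨c, hc, -⟩ := ht.uniq x⁻¹ trivial
    refine ⟨((t c)⁻¹ * x⁻¹)⁻¹, H.inv_mem hc, c, ?_⟩
    group
  refine ⟨σ', ⟨hmul, ⟨1, fun x hx i j => ?_⟩, ?_, ?_, ?_⟩, hPσ'⟩
  · rw [← mem_OL]
    have := OL_mono hLL' (hint x hx i j)
    simpa using this
  · -- on `Z`
    intro z hz
    rw [hZ] at hz
    refine Subgroup.closure_induction (p := fun z _ => σ' z = σ z) ?_ ?_ ?_ ?_ hz
    · intro y hy
      obtain ⟨r, hr, hry⟩ := Group.mem_conjugatesOfSet_iff.1 hy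
      obtain ⟨x, rfl⟩ := isConj_iff.1 hry
      obtain ⟨h, hh, c, rfl⟩ := hdec x
      have e1 : h * (t c)⁻¹ * r * (h * (t c)⁻¹)⁻¹ = h * u (Sum.inl (c, ⟨r, hr⟩)) * h⁻¹ := by
        show _ = h * ((t c)⁻¹ * r * (t c)⁻¹⁻¹) * h⁻¹
        group
      obtain ⟨e, he⟩ := hscal (u (Sum.inl (c, ⟨r, hr⟩))) (C.hZ _ _ (hRZ _ hr))
      have h2 := eq_of_isConj_scalar he (hconj (Sum.inl (c, ⟨r, hr⟩)))
      have huH := hu (Sum.inl (c, ⟨r, hr⟩))
      rw [e1, hmul.mul _ (H.mul_mem hh huH) _ (H.inv_mem hh), hmul.mul _ hh _ huH,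
        hσ.mul _ (H.mul_mem hh huH) _ (H.inv_mem hh), hσ.mul _ hh _ huH,
        MulOn.inv' hmul hh, MulOn.inv' hσ hh, h2, conj_scalar he, conj_scalar he]
    · rw [hmul.one, hσ.one]
    · intro x y hx hy h1 h2
      have hx' : x ∈ H := hZH (by rw [hZ]; exact hx)
      have hy' : y ∈ H := hZH (by rw [hZ]; exact hy)
      rw [hmul.mul _ hx' _ hy', hσ.mul _ hx' _ hy', h1, h2]
    · intro x hx h1
      have hx' : x ∈ H := hZH (by rw [hZ]; exact hx)
      rw [MulOn.inv' hmul hx', MulOn.inv' hσ hx', h1]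
  · -- conjugacy classes
    intro y hy hyH
    obtain ⟨x, j, a, rfl⟩ := (hRel y).1 hy
    obtain ⟨h, hh, c, rfl⟩ := hdec x
    have e1 : h⁻¹ * (h * (t c)⁻¹ * w j ^ a * (h * (t c)⁻¹)⁻¹) * h =
        (t c)⁻¹ * w j ^ a * (t c)⁻¹⁻¹ := by group
    have h1 : (t c)⁻¹ * w j ^ a * (t c)⁻¹⁻¹ ∈ H := by
      rw [← e1]
      exact H.mul_mem (H.mul_mem (H.inv_mem hh) hyH) hh
    obtain ⟨m, rfl⟩ := hd' (c, j) a h1
    have e2 : h * (t c)⁻¹ * w j ^ (d (c, j) * m) * (h * (t c)⁻¹)⁻¹ =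
        h * u (Sum.inr (c, j)) ^ m * h⁻¹ := by
      show _ = h * ((t c)⁻¹ * w j ^ d (c, j) * (t c)⁻¹⁻¹) ^ m * h⁻¹
      rw [conj_zpow, ← _root_.zpow_mul]
      group
    have huH := hu (Sum.inr (c, j))
    have huH' := H.zpow_mem huH m
    rw [e2, hmul.mul _ (H.mul_mem hh huH') _ (H.inv_mem hh), hmul.mul _ hh _ huH',
      hσ.mul _ (H.mul_mem hh huH') _ (H.inv_mem hh), hσ.mul _ hh _ huH',
      MulOn.inv' hmul hh, MulOn.inv' hσ hh, MulOn.zpow' hmul huH, MulOn.zpow' hσ huH]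
    have h3 := isConj_zpow (hconj (Sum.inr (c, j))) m
    obtain ⟨b, hb⟩ := isConj_iff.1 h3
    refine isConj_iff.2 ⟨σ' h * b * (σ h)⁻¹, ?_⟩
    rw [← hb]
    group
  · -- virtually solvable
    refine ⟨C.K ⊓ H ⊓ A, inf_le_left, ?_, 1, ?_⟩
    · have h1 : A.relIndex (C.K ⊓ H) ≠ 0 := fun h =>
        hAi (Subgroup.relIndex_eq_zero_of_le_right inf_le_right h)
      rw [Subgroup.inf_relIndex_left]
      exact h1
    · intro x hx
      have h1 : ⁅C.K ⊓ H ⊓ A, C.K ⊓ H ⊓ A⁆ ≤ (homOf hmul).ker.map H.subtype := by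
        rw [Subgroup.commutator_le]
        intro g₁ h₁ g₂ h₂
        refine ⟨⁅(⟨g₁, hAH h₁.2⟩ : H), ⟨g₂, hAH h₂.2⟩⁆, ?_, rfl⟩
        exact hA g₁ h₁.2 g₂ h₂.2
      obtain ⟨y, hy, rfl⟩ := h1 hx
      exact hy

/-- PC2: base case, virtually solvable image. -/
theorem PC2 [Finite ι] (C : Ctx (FreeGroup ι) I) (R : Set (FreeGroup ι)) {s : ℕ}
    (w : Fin s → FreeGroup ι) (hfin : R.Finite) (hZ : C.Z = Subgroup.normalClosure R)
    (hRel : ∀ y, y ∈ C.Rel ↔ ∃ x j, ∃ a : ℤ, y = x * w j ^ a * x⁻¹) (N₀ B : ℕ) (hN₀ : 0 < N₀) :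
    ∃ L : IntermediateField ℚ ℂ, FiniteDimensional ℚ L ∧ BaseVS C L N₀ B := by
  classical
  have h : ∀ q : {H : Subgroup (FreeGroup ι) | H.index ≠ 0 ∧ H.index ≤ B} × Fin (B + 1),
      ∃ L : IntermediateField ℚ ℂ, FiniteDimensional ℚ L ∧
      ∀ L' : IntermediateField ℚ ℂ, L ≤ L' → C.Z ≤ q.1.1 → 0 < (q.2 : ℕ) →
      ∀ σ : FreeGroup ι → SpecialLinearGroup (Fin q.2) ℂ,
        MulOn q.1.1 σ → Adm C N₀ q.1.1 (H2.lin σ) → VS q.1.1 σ → D C L' q.1.1 σ := by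
    rintro ⟨⟨H, hH⟩, n⟩
    by_cases h1 : C.Z ≤ H ∧ 0 < (n : ℕ)
    · obtain ⟨L, hL, h2⟩ := PC2_one C R w hfin hZ hRel N₀ hN₀ H hH.1 h1.1 n h1.2
      exact ⟨L, hL, fun L' hL' _ _ => h2 L' hL'⟩
    · exact ⟨⊥, inferInstance, fun L' _ h2 h3 => absurd ⟨h2, h3⟩ h1⟩
  choose L hL h using h
  have hf : Finite {H : Subgroup (FreeGroup ι) | H.index ≠ 0 ∧ H.index ≤ B} :=
    finite_subgroups ι B
  refine ⟨⨆ q, L q, IntermediateField.finiteDimensional_iSup_of_finite, ?_⟩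
  intro H n σ hB hσ hadm hvs
  have hn : 0 < n := by
    rcases Nat.eq_zero_or_pos n with rfl | h0
    · have := hadm.irr.1
      exact absurd this (not_nontrivial _)
    · exact h0
  have hidx : 0 < H.index := Nat.pos_of_ne_zero hadm.fi
  have h1 : H.index ≤ B := le_trans (Nat.le_mul_of_pos_right _ hn) hB
  have h2 : n ≤ B := le_trans (Nat.le_mul_of_pos_left _ hidx) hB
  exact h (⟨H, hadm.fi, h1⟩, ⟨n, by omega⟩) _ (le_iSup L _) hadm.zle hn σ hσ hadm hvs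

end

end Vale.Agent.P002.H377
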