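import Vale.Agent.P002.H377.VS2

/-!
# The base case of virtually solvable image, with an arbitrary subgroup acting by scalars
-/

namespace Vale.Agent.P002.H377

open Matrix NumberField Vale.Agent.P002.H2 Vale.Agent.P002R.Orb commutatorElement
open Vale.Agent.P002.H306 (mh Ssi Inv mem_YNone_iff va_dense)
open Vale.Agent.P002.H326J (va_index exists_delta exists_sep exists_word evX va_of_vs)

/-- the core statement, with the abelian subgroup chosen first -/
theorem coreA {ι : Type} [Finite ι] (H : Subgroup (FreeGroup ι)) (hH : H.index ≠ 0) (n : ℕ) :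
    ∃ A ≤ H, A.relIndex H ≠ 0 ∧ ∀ (E : ℕ), 0 < E → ∀ {β : Type} [Finite β]
      (u : β → FreeGroup ι), (∀ j, u j ∈ H) →
    ∃ L : IntermediateField ℚ ℂ, FiniteDimensional ℚ L ∧
      ∀ σ : FreeGroup ι → SpecialLinearGroup (Fin n) ℂ, MulOn H σ → Irr H (H2.lin σ) → VS H σ →
        (∀ j z, (σ (u j)).1.charpoly.IsRoot z → z ^ E = 1) →
        (∀ a ∈ A, ∀ b ∈ A, σ ⁅a, b⁆ = 1) ∧ ∀ P ∈ PF H (Fin n), P σ ≠ 0 →
        ∃ σ' : FreeGroup ι → SpecialLinearGroup (Fin n) ℂ, MulOn H σ' ∧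
          (∀ x ∈ H, ∀ i j, (σ' x).1 i j ∈ OL L) ∧ (∀ j, IsConj (σ (u j)) (σ' (u j))) ∧
          (∀ a ∈ A, ∀ b ∈ A, σ' ⁅a, b⁆ = 1) ∧ P σ' ≠ 0 := by
  classical
  have : H.FiniteIndex := ⟨hH⟩
  obtain ⟨α, hα, π, hπ⟩ := Group.fg_iff_exists_freeGroup_hom_surjective_finite.1
    (inferInstance : Group.FG H)
  obtain ⟨J, hJ⟩ := va_index n
  obtain ⟨Δ, hΔn, hΔf, hΔ⟩ := exists_delta α J
  have hm0 : 0 < Δ.index := Nat.pos_of_ne_zero Subgroup.FiniteIndex.index_ne_zero
  have hfr : (H.subtype.comp π).range = H := by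
    rw [MonoidHom.range_comp, MonoidHom.range_eq_top.2 hπ, ← MonoidHom.range_eq_map,
      Subgroup.range_subtype]
  refine ⟨Δ.map (H.subtype.comp π), ?_, ?_, ?_⟩
  · rintro _ ⟨x, -, rfl⟩
    exact (π x).2
  · have h1 : (⊤ : Subgroup (FreeGroup α)).map (H.subtype.comp π) = H := by
      rw [← MonoidHom.range_eq_map, hfr]
    have h2 := Subgroup.relIndex_map_map (H.subtype.comp π) Δ ⊤
    rw [h1, top_sup_eq, Subgroup.relIndex_top_right] at h2
    rw [h2]
    exact (Subgroup.finiteIndex_of_le (H := Δ) le_sup_left).index_ne_zero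
  intro E hE β _ u hu
  have := Fintype.ofFinite β
  choose v hv using fun j => hπ ⟨u j, hu j⟩
  let R' : Set (FreeGroup α) := {c | π c = 1} ∪ {c | (∃ a ∈ Δ, ∃ b ∈ Δ, c = ⁅a, b⁆) ∨
      ∃ j, c = v j ^ (Δ.index * E)}
  obtain ⟨L, hL, hden⟩ := va_dense R' Δ (fun a ha b hb =>
    Subgroup.subset_normalClosure (Or.inr (Or.inl ⟨a, ha, b, hb, rfl⟩))) n
  refine ⟨L, hL, fun σ hσ hirr hvs heig => ?_⟩
  -- the tuple of `σ`
  let X : α → SpecialLinearGroup (Fin n) ℂ := fun a => σ (π (FreeGroup.of a)).1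
  have hX : ∀ c, σ (π c).1 = FreeGroup.lift X c := by
    have : (homOf hσ).comp π = FreeGroup.lift X := by
      ext a : 1
      simp [X]
    intro c
    rw [← this]
    rfl
  have hssi : Ssi (mh X) := by
    intro W hW
    have h1 := hirr.2 W (by
      intro x hx w hw
      obtain ⟨c, hc⟩ := hπ ⟨x, hx⟩
      have h2 := hX c
      rw [hc] at h2
      have h3 : H2.lin σ x w = (mh X c) *ᵥ w := by
        show Matrix.toLin' (σ x).1 w = _
        rw [Matrix.toLin'_apply, show σ x = FreeGroup.lift X c from h2]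
        rfl
      rw [h3]
      exact hW c w hw)
    rcases h1 with h1 | h1
    · refine ⟨⊤, fun g v _ => trivial, ?_⟩
      rw [h1]
      exact isCompl_bot_top
    · refine ⟨⊥, fun g v hv => ?_, ?_⟩
      · rw [Submodule.mem_bot] at hv ⊢
        rw [hv, mulVec_zero]
      · rw [h1]
        exact isCompl_top_bot
  -- commuting on `Δ`
  have hcomm : ∀ a ∈ Δ, ∀ b ∈ Δ, mh X a * mh X b = mh X b * mh X a := by
    obtain ⟨B', hB', hB'i, k, hk⟩ := hvs
    let f : FreeGroup α →* FreeGroup ι := H.subtype.comp π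
    have hfr : f.range = H := by
      rw [MonoidHom.range_comp, MonoidHom.range_eq_top.2 hπ, ← MonoidHom.range_eq_map,
        Subgroup.range_subtype]
    have hfi : (B'.comap f).FiniteIndex := by
      refine ⟨?_⟩
      rwa [Subgroup.index_comap, hfr]
    obtain ⟨K, hKn, hKf, hK⟩ := va_of_vs (mh X) hssi (B'.comap f) hfi k (by
      intro g hg
      have h1 := derived_le (f.comp (B'.comap f).subtype) (B := B') (by
        rintro _ ⟨x, rfl⟩
        exact x.2) k (Subgroup.mem_map_of_mem _ hg)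
      have h2 := hk _ h1
      have h3 := hX g.1
      show (FreeGroup.lift X g.1).1 = 1
      rw [← h3, show ((π g.1 : H) : FreeGroup ι) = (f.comp (B'.comap f).subtype) g from rfl, h2]
      rfl)
    obtain ⟨A, hA0, hAJ, hA⟩ := hJ (FreeGroup α) (mh X) hssi K hK
    have hle := hΔ A hA0 hAJ
    exact fun a ha b hb => hA a (hle ha) b (hle hb)
  refine ⟨?_, fun P hP hPσ => ?_⟩
  · rintro _ ⟨a, ha, rfl⟩ _ ⟨b, hb, rfl⟩
    rw [← map_commutatorElement]
    show σ (π ⁅a, b⁆).1 = 1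
    rw [hX, map_commutatorElement, commutatorElement_eq_one_iff_mul_comm]
    exact Subtype.ext (hcomm a ha b hb)
  have hXu : ∀ j, FreeGroup.lift X (v j) = σ (u j) := fun j => by rw [← hX, hv]
  have hord : ∀ j, FreeGroup.lift X (v j) ^ (Δ.index * E) = 1 := by
    intro j
    apply Subtype.ext
    have := order_bound hssi Δ hcomm (v j) (E := E) (by
      intro z hz
      refine heig j z ?_
      rw [← hXu]
      exact hz)
    exact this
  have hXR : X ∈ YNone R' n := by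
    refine (mem_YNone_iff R' X).2 ⟨?_, hssi⟩
    rintro c (hc | ⟨a, ha, b, hb, rfl⟩ | ⟨j, rfl⟩)
    · show (FreeGroup.lift X c).1 = 1
      rw [← hX, show π c = 1 from hc, Subgroup.coe_one, hσ.one]
      rfl
    · have h1 : FreeGroup.lift X ⁅a, b⁆ = 1 := by
        rw [map_commutatorElement, commutatorElement_eq_one_iff_mul_comm]
        exact Subtype.ext (hcomm a ha b hb)
      show (FreeGroup.lift X ⁅a, b⁆).1 = 1
      rw [h1]
      rfl
    · show (FreeGroup.lift X (v j ^ (Δ.index * E))).1 = 1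
      rw [map_pow, hord]
      rfl
  have hN : 0 < Δ.index * E := Nat.mul_pos hm0 hE
  choose G hG using fun j => exists_sep (v j) (σ (u j)) hN (by rw [← hXu]; exact hord j)
  obtain ⟨Q, hQ⟩ := PF_eval π hπ hP
  have hprod : ∀ X : α → SpecialLinearGroup (Fin n) ℂ,
      value (Q * ∏ j, G j) X = value Q X * ∏ j, value (G j) X := fun X => by
    simp only [Vale.Agent.P002.H326J.value_eq, map_mul, map_prod]
  have hne : value (Q * ∏ j, G j) X ≠ 0 := by
    rw [hprod]
    refine mul_ne_zero ?_ (Finset.prod_ne_zero_iff.2 fun j _ => (hG j X).1 ?_)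
    · rw [← hQ σ X hX]
      exact hPσ
    · rw [hXu]
  obtain ⟨Y, hYR, hYint, hYne⟩ : ∃ Y ∈ YNone R' n, IsIntegralRep L Y ∧
      value (Q * ∏ j, G j) Y ≠ 0 := by
    by_contra hcon
    push Not at hcon
    exact hne (hden _ (fun Y hY hYi => hcon Y hY hYi) X hXR)
  have hYR' := (mem_YNone_iff R' Y).1 hYR
  -- the new representation
  choose pre hpre using hπ
  obtain ⟨σ', hσ'⟩ : ∃ σ' : FreeGroup ι → SpecialLinearGroup (Fin n) ℂ,
      ∀ c, σ' (π c).1 = FreeGroup.lift Y c := by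
    refine ⟨fun x => if hx : x ∈ H then FreeGroup.lift Y (pre ⟨x, hx⟩) else 1, fun c => ?_⟩
    simp only [dif_pos (π c).2]
    have h1 : FreeGroup.lift Y (pre (π c) * c⁻¹) = 1 := by
      apply Subtype.ext
      refine hYR'.1 _ (Or.inl ?_)
      show π _ = 1
      rw [map_mul, hpre, map_inv, mul_inv_cancel]
    rw [map_mul, map_inv, mul_inv_eq_one] at h1
    exact h1
  have hlift : ∀ x ∈ H, ∃ c, (π c).1 = x := fun x hx => ⟨pre ⟨x, hx⟩, by rw [hpre]⟩
  have hmul : MulOn H σ' := by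
    constructor
    · have := hσ' 1
      rwa [map_one, Subgroup.coe_one, map_one] at this
    · intro x hx y hy
      obtain ⟨c, rfl⟩ := hlift x hx
      obtain ⟨d, rfl⟩ := hlift y hy
      rw [hσ', hσ', ← Subgroup.coe_mul, ← map_mul, hσ', map_mul]
  rw [hprod] at hYne
  have hYne1 := left_ne_zero_of_mul hYne
  have hYne2 := Finset.prod_ne_zero_iff.1 (right_ne_zero_of_mul hYne)
  refine ⟨σ', hmul, ?_, ?_, ?_, ?_⟩
  · intro x hx i j
    obtain ⟨c, rfl⟩ := hlift x hx
    rw [hσ']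
    exact lift_integral hYint c i j
  · intro j
    by_contra hcon
    refine hYne2 j (Finset.mem_univ j) ((hG j Y).2 ?_ ?_)
    · rw [← map_pow]
      exact Subtype.ext (hYR'.1 _ (Or.inr (Or.inr ⟨j, rfl⟩)))
    · rw [← hσ', hv]
      exact hcon
  · rintro _ ⟨a, ha, rfl⟩ _ ⟨b, hb, rfl⟩
    rw [← map_commutatorElement]
    show σ' (π ⁅a, b⁆).1 = 1
    rw [hσ']
    exact Subtype.ext (hYR'.1 _ (Or.inr (Or.inl ⟨a, ha, b, hb, rfl⟩)))
  · rw [hQ σ' Y hσ']
    exact hYne1


end Vale.Agent.P002.H377
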